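import Vale.Agent.P025.R2.H937.Exi
import Vale.Agent.P025.R2.H63.ContDef

/-!
# Places in the `D`-vertices: the final form for `P025H63.Cont` (helper937)
-/

set_option linter.unusedSectionVars false

open Polynomial
open scoped TensorProduct

universe u v w x

namespace P025H937

open P025H720 P025H544 P025H373

variable {C : Type u} {kb : Type v} {N : Type w}
  [NontriviallyNormedField C] [IsUltrametricDist C] [CompleteSpace C] [IsAlgClosed C] [CharZero C]
  [Field kb] [IsAlgClosed kb] [Field N] [Algebra kb C] [Algebra kb N] [TrdegOne kb N]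
  {T : N} [Fact (Transcendental kb T)]

/-- the same homomorphism, from the residue field of the kernel -/
theorem wit_of_factor {A : Type u} [Field A] [Algebra (RatFunc C) A] {V : ValuationSubring A}
    {W : ValuationSubring N} (d : Pt (RatFunc C) A (NCT C kb N T)) {Ω : Type x} [Field Ω]
    (Θ : (A ⊗[RatFunc C] NCT C kb N T) →+* Ω) (hker : ∀ z, Θ z = 0 ↔ z ∈ d.asIdeal)
    {O : ValuationSubring Ω} (h : Wit V W Θ O) :
    ∃ O' : ValuationSubring (KK d), Wit V W (toKK d) O' := by
  let ψ : KK d →+* Ω := Ideal.Quotient.lift d.asIdeal Θ (fun z hz => (hker z).mpr hz)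
  have hψ : ∀ z, ψ (toKK d z) = Θ z := fun z => Ideal.Quotient.lift_mk _ _ _
  refine ⟨O.comap ψ, ?_, ?_, ?_⟩
  · intro a ha
    rw [ValuationSubring.mem_comap, hψ]
    exact h.left a ha
  · rw [ValuationSubring.mem_comap, hψ]
    exact h.t
  · intro n
    rw [ValuationSubring.mem_comap, hψ]
    exact h.mem n

theorem wit_of_cont {d : DT C kb N T} {W : ValuationSubring N} (h : P025H63.Cont d W) :
    ∃ O : ValuationSubring (KK d), Wit (Oinf C) W (toKK d) O := by
  obtain ⟨O, h1, h2, h3⟩ := h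
  have ht : algebraMap (F2 C) (KK d) (t2 C) ∉ O := by
    intro h4
    apply h2
    rw [algebraMap_KKL, ← t2_tmul]
    exact h4
  refine ⟨O, ?_, ht, fun n => h3 n⟩
  intro a ha
  exact (mem_iff_Oinf (algebraMap (F2 C) (KK d)) O (fun a => h1 _ a.2) ht a).mpr ha

theorem cont_of_wit {d : DT C kb N T} {W : ValuationSubring N} {O : ValuationSubring (KK d)}
    (h : Wit (Oinf C) W (toKK d) O) : P025H63.Cont d W := by
  refine ⟨O, ?_, ?_, fun n => h.mem n⟩
  · intro x hx
    exact h.left x (Reg.of_mem hx)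
  · intro h4
    apply h.t
    rw [t2_tmul]
    exact h4

/-- (2a) every `D`-vertex contains a place -/
theorem exists_cont (d : DT C kb N T) : ∃ W : ValuationSubring N,
    (∀ a : kb, algebraMap kb N a ∈ W) ∧ T ∉ W ∧ P025H63.Cont d W := by
  obtain ⟨W, O, h⟩ := exists_wit (T := T) infV_Oinf (toKK d)
  exact ⟨W, h.kb_mem infV_Oinf, h.T_notMem, cont_of_wit h⟩

/-- (2b) every place at which `T` has a pole lies in a vertex -/
theorem exists_vertex (W : ValuationSubring N) (hk : ∀ a : kb, algebraMap kb N a ∈ W)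
    (hT : T ∉ W) : ∃ d : DT C kb N T, P025H63.Cont d W := by
  obtain ⟨Ω, _, Θ, O, h⟩ := exists_wit_of_place (A := F2 C) infV_Oinf W hk hT
  obtain ⟨O', h'⟩ := wit_of_factor ⟨RingHom.ker Θ, RingHom.ker_isPrime Θ⟩ Θ
    (fun z => (RingHom.mem_ker).symm) h
  exact ⟨_, cont_of_wit h'⟩

/-- (2c) and in only one -/
theorem cont_unique {d d' : DT C kb N T} {W : ValuationSubring N} (h : P025H63.Cont d W)
    (h' : P025H63.Cont d' W) : d = d' := by
  obtain ⟨O, h⟩ := wit_of_cont h
  obtain ⟨O', h'⟩ := wit_of_cont h'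
  apply PrimeSpectrum.ext
  apply le_antisymm
  · intro z hz
    rw [← toKK_eq_zero_iff] at hz ⊢
    exact h.ker_le infV_Oinf h' hz
  · intro z hz
    rw [← toKK_eq_zero_iff] at hz ⊢
    exact h'.ker_le infV_Oinf h hz

theorem cont_kb {d : DT C kb N T} {W : ValuationSubring N} (h : P025H63.Cont d W) (a : kb) :
    algebraMap kb N a ∈ W := by
  obtain ⟨O, h⟩ := wit_of_cont h
  exact h.kb_mem infV_Oinf a

theorem cont_T {d : DT C kb N T} {W : ValuationSubring N} (h : P025H63.Cont d W) : T ∉ W := by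
  obtain ⟨O, h⟩ := wit_of_cont h
  exact h.T_notMem

end P025H937
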