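import Mathlib

/-!
# Amalgamation of two valued rings (helper937)

`A`, `W` torsion free over a principal ideal domain `P`, with compatible maps to a domain `κ`; then
there are a field `Ω`, injective compatible maps `A → Ω`, `W → Ω` and a valuation ring of `Ω`
which dominates both.
-/

open scoped TensorProduct

namespace P025H937

/-- a valuation ring over a proper ideal -/
theorem exists_val {R Ω : Type*} [CommRing R] [Field Ω] (f : R →+* Ω) (Q : Ideal R) (hQ : Q ≠ ⊤)
    (hk : RingHom.ker f ≤ Q) :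
    ∃ O : ValuationSubring Ω, (∀ r, f r ∈ O) ∧ ∀ r ∈ Q, O.valuation (f r) < 1 := by
  have hs : Function.Surjective f.rangeRestrict := f.rangeRestrict_surjective
  have hI : Q.map f.rangeRestrict ≠ ⊤ := by
    intro h
    have h1 := Ideal.comap_map_of_surjective f.rangeRestrict hs Q
    rw [h, Ideal.comap_top] at h1
    apply hQ
    rw [eq_top_iff, h1]
    refine sup_le le_rfl ?_
    intro x hx
    apply hk
    rw [Ideal.mem_comap, Ideal.mem_bot] at hx
    rw [RingHom.mem_ker]
    exact congrArg Subtype.val hx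
  obtain ⟨O, h1, h2⟩ := Ideal.image_subset_nonunits_valuationSubring _ hI
  refine ⟨O, fun r => h1 ⟨r, rfl⟩, fun r hr => ?_⟩
  have h3 : f r ∈ O.nonunits := h2 ⟨f.rangeRestrict r, Ideal.mem_map_of_mem _ hr, rfl⟩
  exact (ValuationSubring.mem_nonunits_iff O).mp h3

theorem flat_of_injective (P W : Type*) [CommRing P] [IsDomain P] [IsPrincipalIdealRing P]
    [CommRing W] [IsDomain W] [Algebra P W] (h : Function.Injective (algebraMap P W)) :
    Module.Flat P W := by
  rw [Module.Flat.flat_iff_torsion_eq_bot_of_isBezout]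
  rw [eq_bot_iff]
  rintro x ⟨⟨a, ha⟩, hax⟩
  rw [Submodule.mem_bot]
  have h1 : algebraMap P W a * x = 0 := by
    rw [← Algebra.smul_def]; exact hax
  rcases mul_eq_zero.mp h1 with h2 | h2
  · exact absurd ((injective_iff_map_eq_zero _).mp h a h2) (nonZeroDivisors.ne_zero ha)
  · exact h2

theorem left_mem_nonZeroDivisors {P A W : Type*} [CommRing P] [CommRing A] [IsDomain A]
    [CommRing W] [Algebra P A] [Algebra P W] [Module.Flat P W] {a : A} (ha : a ≠ 0) :
    (a ⊗ₜ[P] (1 : W)) ∈ nonZeroDivisors (A ⊗[P] W) := by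
  have h1 : Function.Injective (LinearMap.rTensor W (LinearMap.mulLeft P a)) := by
    apply Module.Flat.rTensor_preserves_injective_linearMap
    exact mul_right_injective₀ ha
  have h2 : ∀ z : A ⊗[P] W, LinearMap.rTensor W (LinearMap.mulLeft P a) z = (a ⊗ₜ[P] 1) * z := by
    intro z
    induction z with
    | zero => rw [map_zero, mul_zero]
    | add x y hx hy => rw [map_add, hx, hy, mul_add]
    | tmul b w =>
      rw [LinearMap.rTensor_tmul, Algebra.TensorProduct.tmul_mul_tmul, one_mul]
      rfl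
  rw [mem_nonZeroDivisors_iff_right]
  intro z hz
  apply h1
  rw [h2, map_zero, mul_comm]
  exact hz

theorem right_mem_nonZeroDivisors {P A W : Type*} [CommRing P] [CommRing A]
    [CommRing W] [IsDomain W] [Algebra P A] [Algebra P W] [Module.Flat P A] {w : W} (hw : w ≠ 0) :
    ((1 : A) ⊗ₜ[P] w) ∈ nonZeroDivisors (A ⊗[P] W) := by
  have h1 : Function.Injective (LinearMap.lTensor A (LinearMap.mulLeft P w)) := by
    apply Module.Flat.lTensor_preserves_injective_linearMap
    exact mul_right_injective₀ hw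
  have h2 : ∀ z : A ⊗[P] W, LinearMap.lTensor A (LinearMap.mulLeft P w) z = (1 ⊗ₜ[P] w) * z := by
    intro z
    induction z with
    | zero => rw [map_zero, mul_zero]
    | add x y hx hy => rw [map_add, hx, hy, mul_add]
    | tmul b w' =>
      rw [LinearMap.lTensor_tmul, Algebra.TensorProduct.tmul_mul_tmul, one_mul]
      rfl
  rw [mem_nonZeroDivisors_iff_right]
  intro z hz
  apply h1
  rw [h2, map_zero, mul_comm]
  exact hz

universe u v w x

/-- AMALGAMATION -/
theorem exists_amalgam (P : Type v) (A : Type u) (W : Type w) (κ : Type x) [CommRing P]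
    [IsDomain P] [IsPrincipalIdealRing P] [CommRing A] [IsDomain A] [CommRing W] [IsDomain W]
    [CommRing κ] [IsDomain κ] [Algebra P A] [Algebra P W] [Algebra P κ]
    (hA : Function.Injective (algebraMap P A)) (hW : Function.Injective (algebraMap P W))
    (gA : A →ₐ[P] κ) (gW : W →ₐ[P] κ) :
    ∃ (Ω : Type (max u w)) (_ : Field Ω) (fA : A →+* Ω) (fW : W →+* Ω) (O : ValuationSubring Ω),
      Function.Injective fA ∧ Function.Injective fW ∧
      (∀ p : P, fA (algebraMap P A p) = fW (algebraMap P W p)) ∧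
      (∀ a, fA a ∈ O) ∧ (∀ b, fW b ∈ O) ∧ (∀ a, gA a = 0 → O.valuation (fA a) < 1) ∧
      (∀ b, gW b = 0 → O.valuation (fW b) < 1) := by
  have flA := flat_of_injective P A hA
  have flW := flat_of_injective P W hW
  let g : A ⊗[P] W →ₐ[P] κ := Algebra.TensorProduct.productMap gA gW
  have hQ : (RingHom.ker g).IsPrime := RingHom.ker_isPrime g
  obtain ⟨q, hq, hqQ⟩ := Ideal.exists_minimalPrimes_le (bot_le (a := RingHom.ker g))
  have hqp : q.IsPrime := hq.1.1
  have hdom : IsDomain ((A ⊗[P] W) ⧸ q) := Ideal.Quotient.isDomain q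
  let f : A ⊗[P] W →+* FractionRing ((A ⊗[P] W) ⧸ q) :=
    (algebraMap ((A ⊗[P] W) ⧸ q) (FractionRing ((A ⊗[P] W) ⧸ q))).comp (Ideal.Quotient.mk q)
  have hker : RingHom.ker f = q := by
    ext z
    rw [RingHom.mem_ker]
    change algebraMap ((A ⊗[P] W) ⧸ q) (FractionRing ((A ⊗[P] W) ⧸ q))
      (Ideal.Quotient.mk q z) = 0 ↔ _
    rw [map_eq_zero_iff _ (IsFractionRing.injective _ _), Ideal.Quotient.eq_zero_iff_mem]
  obtain ⟨O, hO1, hO2⟩ := exists_val f (RingHom.ker g) hQ.ne_top (by rw [hker]; exact hqQ)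
  have hnz : ∀ z ∈ nonZeroDivisors (A ⊗[P] W), f z ≠ 0 := by
    intro z hz h0
    have h1 : z ∈ q := by rw [← hker]; exact h0
    exact notMem_nonZeroDivisors_of_mem_mem_minimalPrimes h1 hq hz
  refine ⟨FractionRing ((A ⊗[P] W) ⧸ q), inferInstance,
    f.comp (Algebra.TensorProduct.includeLeftRingHom),
    f.comp (Algebra.TensorProduct.includeRight (R := P) (A := A) (B := W)).toRingHom, O,
    ?_, ?_, ?_, fun a => hO1 _, fun b => hO1 _, ?_, ?_⟩
  · rw [injective_iff_map_eq_zero]
    intro a ha
    by_contra h0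
    exact hnz _ (left_mem_nonZeroDivisors (P := P) (W := W) h0) ha
  · rw [injective_iff_map_eq_zero]
    intro b hb
    by_contra h0
    exact hnz _ (right_mem_nonZeroDivisors (P := P) (A := A) h0) hb
  · intro p
    change f (algebraMap P A p ⊗ₜ 1) = f (1 ⊗ₜ algebraMap P W p)
    congr 1
    rw [Algebra.algebraMap_eq_smul_one, Algebra.algebraMap_eq_smul_one, TensorProduct.smul_tmul]
  · intro a ha
    apply hO2
    rw [RingHom.mem_ker]
    change g (a ⊗ₜ 1) = 0
    rw [Algebra.TensorProduct.productMap_apply_tmul, map_one, mul_one, ha]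
  · intro b hb
    apply hO2
    rw [RingHom.mem_ker]
    change g (1 ⊗ₜ b) = 0
    rw [Algebra.TensorProduct.productMap_apply_tmul, map_one, one_mul, hb]

end P025H937
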