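import Mathlib.RingTheory.AdjoinRoot
import Mathlib.RingTheory.IntegralClosure.Algebra.Basic
import Mathlib.RingTheory.Polynomial.ScaleRoots

/-!
# P025, A side, item (2e) (helper937): a quadratic equation over a complete ring

If `R` is complete and separated for the powers of `π` and `z` is integral over `R` then
`x ^ 2 - x = π * z` has a solution `x = π * y` with `y` integral over `R`.
-/

set_option linter.unusedSectionVars false

open Polynomial

universe u v

namespace P025H937

section

variable {R : Type u} [CommRing R] (π : R)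

/-- complete and separated for the powers of `π`, elementary form -/
structure PiComplete : Prop where
  sep : ∀ x : R, (∀ n : ℕ, π ^ n ∣ x) → x = 0
  lim : ∀ f : ℕ → R, (∀ n : ℕ, π ^ n ∣ f (n + 1) - f n) → ∃ l : R, ∀ n : ℕ, π ^ n ∣ l - f n

variable {π}

theorem dvd_iff_coord {Q : Type v} [CommRing Q] [Algebra R Q] {ι : Type*} [Fintype ι]
    (B : Module.Basis ι R Q) (a : R) (x : Q) :
    algebraMap R Q a ∣ x ↔ ∀ i, a ∣ B.repr x i := by
  constructor
  · rintro ⟨y, rfl⟩ i
    refine ⟨B.repr y i, ?_⟩
    rw [← Algebra.smul_def, map_smul, Finsupp.smul_apply, smul_eq_mul]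
  · intro h
    choose y hy using h
    refine ⟨∑ i, y i • B i, ?_⟩
    rw [← Algebra.smul_def, Finset.smul_sum]
    conv_lhs => rw [← B.sum_repr x]
    apply Finset.sum_congr rfl
    intro i _
    rw [hy i, mul_smul]

theorem PiComplete.free (h : PiComplete π) {Q : Type v} [CommRing Q] [Algebra R Q] {ι : Type*}
    [Fintype ι] (B : Module.Basis ι R Q) : PiComplete (algebraMap R Q π) where
  sep x hx := by
    apply B.ext_elem
    intro i
    rw [map_zero, Finsupp.zero_apply]
    apply h.sep
    intro n
    have h1 := hx n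
    rw [← map_pow, dvd_iff_coord B] at h1
    exact h1 i
  lim f hf := by
    have h1 : ∀ i n, π ^ n ∣ B.repr (f (n + 1)) i - B.repr (f n) i := by
      intro i n
      have h1 := hf n
      rw [← map_pow, dvd_iff_coord B] at h1
      have h2 := h1 i
      rwa [map_sub, Finsupp.sub_apply] at h2
    choose l hl using fun i => h.lim (fun n => B.repr (f n) i) (h1 i)
    refine ⟨∑ i, l i • B i, fun n => ?_⟩
    rw [← map_pow, dvd_iff_coord B]
    intro i
    rw [map_sub, Finsupp.sub_apply]
    have h3 : B.repr (∑ i, l i • B i) i = l i := by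
      rw [B.repr_sum_self]
    rw [h3]
    exact hl i n

/-- the quadratic equation in a complete ring -/
theorem PiComplete.exists_quad (h : PiComplete π) (X : R) :
    ∃ y : R, (π * y) ^ 2 - π * y = π * X := by
  let f : ℕ → R := fun n => Nat.rec 0 (fun _ x => x ^ 2 - π * X) n
  have hf0 : f 0 = 0 := rfl
  have hfs : ∀ n, f (n + 1) = f n ^ 2 - π * X := fun n => rfl
  have h1 : ∀ n, π ∣ f n := by
    intro n
    induction n with
    | zero => exact dvd_zero _
    | succ n ih =>
      rw [hfs]
      exact dvd_sub (dvd_pow ih two_ne_zero) (dvd_mul_right _ _)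
  have h2 : ∀ n, π ^ n ∣ f (n + 1) - f n := by
    intro n
    induction n with
    | zero => rw [pow_zero]; exact one_dvd _
    | succ n ih =>
      have e : f (n + 1 + 1) - f (n + 1) = (f (n + 1) - f n) * (f (n + 1) + f n) := by
        rw [hfs (n + 1), hfs n]; ring
      rw [e, pow_succ]
      exact mul_dvd_mul ih (dvd_add (h1 (n + 1)) (h1 n))
  obtain ⟨l, hl⟩ := h.lim f h2
  have h3 : π ∣ l := by
    have h4 := hl 1
    rw [pow_one] at h4
    have h5 := dvd_add h4 (h1 1)
    rwa [sub_add_cancel] at h5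
  obtain ⟨y, rfl⟩ := h3
  refine ⟨y, ?_⟩
  rw [← sub_eq_zero]
  apply h.sep
  intro n
  have e : (π * y) ^ 2 - π * y - π * X = (π * y - f n) * (π * y + f n) - (π * y - f (n + 1)) := by
    rw [hfs n]; ring
  rw [e]
  exact dvd_sub (Dvd.dvd.mul_right (hl n) _) ((pow_dvd_pow _ (Nat.le_succ n)).trans (hl (n + 1)))

/-- the quadratic equation over a complete ring -/
theorem PiComplete.exists_quad_integral (h : PiComplete π) {K : Type v} [CommRing K]
    (φ : R →+* K) {z : K} (hz : φ.IsIntegralElem z) :
    ∃ y : K, φ.IsIntegralElem y ∧ (φ π * y) ^ 2 - φ π * y = φ π * z := by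
  obtain ⟨χ, hχ, hχz⟩ := hz
  let B := (AdjoinRoot.powerBasis' hχ).basis
  have hQ : PiComplete (algebraMap R (AdjoinRoot χ) π) := h.free B
  obtain ⟨y, hy⟩ := hQ.exists_quad (AdjoinRoot.root χ)
  let ψ : AdjoinRoot χ →+* K := AdjoinRoot.lift φ z hχz
  have hψ : ∀ r, ψ (algebraMap R (AdjoinRoot χ) r) = φ r := fun r => AdjoinRoot.lift_of hχz
  have hψr : ψ (AdjoinRoot.root χ) = z := AdjoinRoot.lift_root hχz
  refine ⟨ψ y, ?_, ?_⟩
  · have hfin : Module.Finite R (AdjoinRoot χ) := Module.Finite.of_basis B
    have hint : IsIntegral R y := Algebra.IsIntegral.isIntegral y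
    obtain ⟨P, hP, hPy⟩ := hint
    refine ⟨P, hP, ?_⟩
    have h1 : φ = ψ.comp (algebraMap R (AdjoinRoot χ)) := by
      ext r
      exact (hψ r).symm
    rw [h1, ← Polynomial.hom_eval₂, hPy, map_zero]
  · have h1 := congrArg ψ hy
    rw [map_sub, map_pow, map_mul, map_mul, hψ, hψr] at h1
    exact h1

end

end P025H937
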