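import Vale.Agent.P025.R2.H720.NC
import Mathlib.RingTheory.DedekindDomain.AdicValuation
import Mathlib.RingTheory.DedekindDomain.IntegralClosure

/-!
# P025, A side, item (2e), separation half (helper937)

In a finitely generated extension of `kb` of transcendence degree one the places above
`T = infinity` are separated by finitely many elements.
-/

set_option linter.unusedSectionVars false

namespace P025H937

section abs

variable {A L : Type*} [CommRing A] [IsDedekindDomain A] [Field L] [Algebra A L]

/-- a valuation ring containing `A` contains the integral closure -/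
theorem mem_of_integral' {A L : Type*} [CommRing A] [Field L] [Algebra A L] (V : ValuationSubring L)
    (hV : ∀ a : A, algebraMap A L a ∈ V) {b : L} (hb : IsIntegral A b) : b ∈ V := by
  let g : A →+* V := (algebraMap A L).codRestrict V.toSubring hV
  let _ : Algebra A V := g.toAlgebra
  have : IsScalarTower A V L := IsScalarTower.of_algebraMap_eq fun a => rfl
  have h1 : IsIntegral V b := hb.tower_top
  obtain ⟨y, hy⟩ := IsIntegrallyClosed.isIntegral_iff.mp h1
  rw [← hy]
  exact y.2

/-- the centre of a valuation ring on the integral closure -/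
def centre (V : ValuationSubring L) (hV : ∀ a : A, algebraMap A L a ∈ V) :
    Ideal (integralClosure A L) where
  carrier := {b | V.valuation (b : L) < 1}
  add_mem' := fun {a b} ha hb => by
    simp only [Set.mem_ofPred_eq] at *
    push_cast
    exact lt_of_le_of_lt (V.valuation.map_add _ _) (max_lt ha hb)
  zero_mem' := by simp
  smul_mem' := fun c x hx => by
    simp only [Set.mem_ofPred_eq, smul_eq_mul] at *
    push_cast
    rw [map_mul]
    have h1 : V.valuation (c : L) ≤ 1 :=
      (V.valuation_le_one_iff _).2 (mem_of_integral' V hV c.2)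
    exact mul_lt_one_of_nonneg_of_lt_one_right h1 zero_le hx

theorem mem_centre {V : ValuationSubring L} {hV : ∀ a : A, algebraMap A L a ∈ V}
    {b : integralClosure A L} : b ∈ centre V hV ↔ V.valuation (b : L) < 1 := Iff.rfl

theorem val_eq_one_of_notMem {V : ValuationSubring L} {hV : ∀ a : A, algebraMap A L a ∈ V}
    {b : integralClosure A L} (hb : b ∉ centre V hV) : V.valuation (b : L) = 1 :=
  le_antisymm ((V.valuation_le_one_iff _).2 (mem_of_integral' V hV b.2))
    (not_lt.1 fun h => hb (mem_centre.2 h))

instance centre_prime (V : ValuationSubring L) (hV : ∀ a : A, algebraMap A L a ∈ V) :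
    (centre V hV).IsPrime where
  ne_top' := by
    rw [Ne, Ideal.eq_top_iff_one, mem_centre]
    simp
  mem_or_mem' := fun {x y} hxy => by
    by_contra h
    push Not at h
    have h1 := val_eq_one_of_notMem h.1
    have h2 := val_eq_one_of_notMem h.2
    rw [mem_centre] at hxy
    push_cast at hxy
    rw [map_mul, h1, h2, mul_one] at hxy
    exact lt_irrefl _ hxy

theorem centre_liesOver (p : Ideal A) [p.IsMaximal] (V : ValuationSubring L)
    (hV : ∀ a : A, algebraMap A L a ∈ V) (hp : ∀ a ∈ p, V.valuation (algebraMap A L a) < 1) :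
    (centre V hV).LiesOver p := by
  constructor
  refine Ideal.IsMaximal.eq_of_le inferInstance ?_ ?_
  · intro h
    have h1 : (1 : A) ∈ (centre V hV).under A := by rw [h]; trivial
    rw [Ideal.under_def, Ideal.mem_comap, map_one] at h1
    exact (centre_prime V hV).ne_top ((Ideal.eq_top_iff_one _).2 h1)
  · intro a ha
    rw [Ideal.under_def, Ideal.mem_comap, mem_centre]
    exact hp a ha

theorem le_of_centre_le [IsDedekindDomain (integralClosure A L)]
    [IsFractionRing (integralClosure A L) L] {V V' : ValuationSubring L}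
    {hV : ∀ a : A, algebraMap A L a ∈ V} {hV' : ∀ a : A, algebraMap A L a ∈ V'}
    (hbot : centre V hV ≠ ⊥) (h3 : centre V' hV' ≤ centre V hV) : V ≤ V' := by
  intro x hx
  let v : IsDedekindDomain.HeightOneSpectrum (integralClosure A L) :=
    ⟨centre V hV, inferInstance, hbot⟩
  obtain ⟨n, d, hnd⟩ := IsDedekindDomain.HeightOneSpectrum.exists_primeCompl_mul_eq_or_mul_eq v x
  have hd : (d : integralClosure A L) ∉ centre V hV := d.2
  have hkey : ∃ n d : integralClosure A L, d ∉ centre V hV ∧ x * (d : L) = n := by
    rcases hnd with h | h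
    · exact ⟨n, d, hd, h⟩
    · refine ⟨d, n, ?_, h⟩
      intro hn
      apply hd
      rw [mem_centre] at hn ⊢
      have h8 : (((d : integralClosure A L) : L)) = x * (n : L) := h.symm
      rw [h8, map_mul]
      exact mul_lt_one_of_nonneg_of_lt_one_right ((V.valuation_le_one_iff _).2 hx) zero_le hn
  obtain ⟨n, d, hd, hnd⟩ := hkey
  have hd' : d ∉ centre V' hV' := fun h => hd (h3 h)
  have h9 := congrArg V'.valuation hnd
  rw [map_mul, val_eq_one_of_notMem hd', mul_one] at h9
  rw [← V'.valuation_le_one_iff, h9, V'.valuation_le_one_iff]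
  exact mem_of_integral' V' hV' n.2

theorem exists_sep_aux (K : Type*) [Field K] [Algebra A K]
    [IsFractionRing A K] [Algebra K L] [IsScalarTower A K L]
    [FiniteDimensional K L] [Algebra.IsSeparable K L] (p : Ideal A) [p.IsMaximal] (hp0 : p ≠ ⊥) :
    ∃ U : Finset L, ∀ V V' : ValuationSubring L, (∀ a : A, algebraMap A L a ∈ V) →
      (∀ a : A, algebraMap A L a ∈ V') → (∀ a ∈ p, V.valuation (algebraMap A L a) < 1) →
      (∀ a ∈ p, V'.valuation (algebraMap A L a) < 1) → (∀ u ∈ U, u ∈ V → u ∈ V') → V ≤ V' := by
  classical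
  have : IsDedekindDomain (integralClosure A L) :=
    IsIntegralClosure.isDedekindDomain A K L (integralClosure A L)
  have : IsFractionRing (integralClosure A L) L :=
    IsIntegralClosure.isFractionRing_of_finite_extension A K L (integralClosure A L)
  have hinjL : Function.Injective (algebraMap A L) := by
    rw [IsScalarTower.algebraMap_eq A K L]
    exact (algebraMap K L).injective.comp (IsFractionRing.injective A K)
  have hinjB : Function.Injective (algebraMap A (integralClosure A L)) := by
    intro a b hab
    apply hinjL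
    rw [IsScalarTower.algebraMap_apply A (integralClosure A L) L, hab,
      ← IsScalarTower.algebraMap_apply A (integralClosure A L) L]
  have : Module.IsTorsionFree A (integralClosure A L) :=
    Module.isTorsionFree_iff_algebraMap_injective.2 hinjB
  have hfin : (p.primesOver (integralClosure A L)).Finite :=
    IsDedekindDomain.primesOver_finite p (integralClosure A L)
  have hch : ∀ P P' : Ideal (integralClosure A L), ¬ P' ≤ P →
      ∃ b : integralClosure A L, b ∈ P' ∧ b ∉ P := by
    intro P P' h
    exact Set.not_subset.1 h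
  choose! f hf using hch
  refine ⟨(hfin.toFinset ×ˢ hfin.toFinset).image
    (fun x => ((f x.1 x.2 : integralClosure A L) : L)⁻¹), ?_⟩
  intro V V' hV hV' hpV hpV' hU
  have h1 := centre_liesOver p V hV hpV
  have h2 := centre_liesOver p V' hV' hpV'
  have h3 : centre V' hV' ≤ centre V hV := by
    by_contra hcon
    obtain ⟨hb', hb⟩ := hf _ _ hcon
    set b := f (centre V hV) (centre V' hV') with hbdef
    have h4 : ((b : L))⁻¹ ∈ V := by
      rw [← V.valuation_le_one_iff, map_inv₀, val_eq_one_of_notMem hb, inv_one]
    have h5 : ((b : L))⁻¹ ∈ V' := by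
      refine hU _ ?_ h4
      rw [Finset.mem_image]
      refine ⟨(centre V hV, centre V' hV'), ?_, rfl⟩
      rw [Finset.mem_product, Set.Finite.mem_toFinset, Set.Finite.mem_toFinset]
      exact ⟨⟨inferInstance, h1⟩, ⟨inferInstance, h2⟩⟩
    rw [mem_centre] at hb'
    have hb0 : (b : L) ≠ 0 := by
      intro h0
      apply hb
      rw [mem_centre, h0, map_zero]
      exact zero_lt_one
    rw [← V'.valuation_le_one_iff, map_inv₀] at h5
    have h6 : V'.valuation (b : L) ≠ 0 := by
      rw [Ne, map_eq_zero]; exact hb0
    have h7 : (1 : V'.ValueGroup) < (V'.valuation (b : L))⁻¹ := by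
      rwa [one_lt_inv₀ (zero_lt_iff.2 h6)]
    exact absurd h5 (not_le.2 h7)
  have hbot : centre V hV ≠ ⊥ := by
    intro h0
    apply hp0
    rw [h1.over, h0, Ideal.under_def, Ideal.comap_bot_of_injective]
    exact hinjB
  exact le_of_centre_le hbot h3

end abs

section app

open IntermediateField

open scoped IntermediateField.algebraAdjoinAdjoin

universe v w

variable {kb : Type v} {N : Type w} [Field kb] [CharZero kb] [Field N] [Algebra kb N]
  [P025H720.TrdegOne kb N]

theorem val_lt_one_iff_inv {M : Type*} [Field M] (V : ValuationSubring M) {x : M} (hx : x ≠ 0) :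
    V.valuation x < 1 ↔ x⁻¹ ∉ V := by
  have h6 : V.valuation x ≠ 0 := by
    rw [Ne, map_eq_zero]; exact hx
  rw [← V.valuation_le_one_iff, map_inv₀, not_le, one_lt_inv₀ (zero_lt_iff.2 h6)]

/-- the generator of `kb[s]` -/
def gen (kb : Type v) {N : Type w} [Field kb] [Field N] [Algebra kb N] (s : N) :
    Algebra.adjoin kb {s} :=
  ⟨s, Algebra.self_mem_adjoin_singleton kb s⟩

theorem gen_surj (s : N) (x : Algebra.adjoin kb {s}) :
    ∃ q : Polynomial kb, Polynomial.aeval (gen kb s) q = x := by
  obtain ⟨x, hx⟩ := x
  have hx' := hx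
  rw [Algebra.adjoin_singleton_eq_range_aeval] at hx'
  obtain ⟨q, hq⟩ := hx'
  refine ⟨q, Subtype.ext ?_⟩
  rw [Polynomial.aeval_subalgebra_coe]
  exact hq

theorem adjoin_pid (s : N) : IsPrincipalIdealRing (Algebra.adjoin kb {s}) :=
  IsPrincipalIdealRing.of_surjective
    (Polynomial.aeval (R := kb) (gen kb s) : Polynomial kb →ₐ[kb] Algebra.adjoin kb {s}).toRingHom
    (gen_surj s)

theorem adjoin_dec (s : N) (x : Algebra.adjoin kb {s}) :
    ∃ (c : kb) (b : Algebra.adjoin kb {s}), x = algebraMap kb _ c + gen kb s * b := by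
  obtain ⟨q, rfl⟩ := gen_surj s x
  refine ⟨q.coeff 0, Polynomial.aeval (gen kb s) q.divX, ?_⟩
  conv_lhs => rw [← Polynomial.divX_mul_X_add q]
  rw [map_add, map_mul, Polynomial.aeval_X, Polynomial.aeval_C]
  ring

theorem gen_maximal {s : N} (hst : Transcendental kb s) :
    (Ideal.span {gen kb s} : Ideal (Algebra.adjoin kb {s})).IsMaximal := by
  rw [Ideal.isMaximal_iff]
  constructor
  · rw [Ideal.mem_span_singleton]
    rintro ⟨b, hb⟩
    obtain ⟨q, rfl⟩ := gen_surj s b
    apply hst
    refine ⟨Polynomial.X * q - 1, ?_, ?_⟩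
    · intro h0
      have h1 := congrArg (fun r => Polynomial.coeff r 0) h0
      simp at h1
    · have h2 := congrArg (fun r : Algebra.adjoin kb {s} => (r : N)) hb
      simp only [MulMemClass.coe_mul, OneMemClass.coe_one] at h2
      rw [Polynomial.aeval_subalgebra_coe] at h2
      change 1 = s * Polynomial.aeval s q at h2
      rw [map_sub, map_mul, Polynomial.aeval_X, map_one, ← h2, sub_self]
  · intro J x hJ hx hxJ
    obtain ⟨c, b, rfl⟩ := adjoin_dec s x
    have hb : gen kb s * b ∈ Ideal.span {gen kb s} :=
      Ideal.mul_mem_right _ _ (Ideal.mem_span_singleton_self _)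
    have hc : c ≠ 0 := by
      rintro rfl
      apply hx
      rw [map_zero, zero_add]
      exact hb
    have h3 : algebraMap kb (Algebra.adjoin kb {s}) c ∈ J := by
      have h4 := J.sub_mem hxJ (hJ hb)
      rwa [add_sub_cancel_right] at h4
    have h5 := J.mul_mem_left (algebraMap kb (Algebra.adjoin kb {s}) c⁻¹) h3
    rwa [← map_mul, inv_mul_cancel₀ hc, map_one] at h5

/-- **Separation of the places above infinity by finitely many elements** -/
theorem exists_sep (T : N) (hT : Transcendental kb T) (F : Finset N) :
    ∃ U : Finset N, ∀ W W' : ValuationSubring N, (∀ c : kb, algebraMap kb N c ∈ W) →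
      (∀ c : kb, algebraMap kb N c ∈ W') → T ∉ W → T ∉ W' → (∀ u ∈ U, u ∈ W → u ∈ W') →
      ∀ x ∈ IntermediateField.adjoin kb (F : Set N), x ∈ W → x ∈ W' := by
  classical
  have hT0 : T ≠ 0 := by
    rintro rfl
    exact hT isAlgebraic_zero
  set s : N := T⁻¹ with hs
  have hst : Transcendental kb s := fun h => hT (by
    have := h.inv
    rwa [hs, inv_inv] at this)
  have hs0 : s ≠ 0 := inv_ne_zero hT0
  let A := Algebra.adjoin kb {s}
  let K := IntermediateField.adjoin kb {s}
  have hpid : IsPrincipalIdealRing A := adjoin_pid s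
  have hded : IsDedekindDomain A := inferInstance
  let L : IntermediateField K N := IntermediateField.adjoin K (F : Set N)
  have halg : ∀ x : N, IsAlgebraic K x := by
    intro x
    have h1 : IsAlgebraic A x := P025H720.TrdegOne.alg s x hst
    exact h1.extendScalars (IsFractionRing.injective A K)
  have : Finite ((F : Set N)) := inferInstance
  have hfin : FiniteDimensional K L :=
    IntermediateField.finiteDimensional_adjoin (fun x _ => (halg x).isIntegral)
  have : CharZero K := inferInstance
  have : IsScalarTower A K L := by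
    refine IsScalarTower.of_algebraMap_eq fun a => ?_
    rfl
  have hmax : (Ideal.span {gen kb s} : Ideal A).IsMaximal := gen_maximal hst
  have hne : (Ideal.span {gen kb s} : Ideal A) ≠ ⊥ := by
    intro h0
    rw [Ideal.span_singleton_eq_bot] at h0
    exact hs0 (congrArg (fun r : A => (r : N)) h0)
  obtain ⟨U, hU⟩ := exists_sep_aux (L := L) K (Ideal.span {gen kb s} : Ideal A) hne
  refine ⟨U.image (fun u : L => (u : N)), ?_⟩
  intro W W' hk hk' hTW hTW' hUW x hx hxW
  have hAW : ∀ V : ValuationSubring N, (∀ c : kb, algebraMap kb N c ∈ V) → T ∉ V →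
      (∀ a : A, (a : N) ∈ V) ∧ ∀ a ∈ (Ideal.span {gen kb s} : Ideal A), V.valuation (a : N) < 1 := by
    intro V hkV hTV
    have h1 : V.valuation s < 1 := by
      rw [val_lt_one_iff_inv V hs0, hs, inv_inv]
      exact hTV
    have h2 : ∀ a : A, (a : N) ∈ V := by
      rintro ⟨a, ha⟩
      change a ∈ V
      induction ha using Algebra.adjoin_induction with
      | mem x hx =>
        rw [Set.mem_singleton_iff] at hx
        rw [hx]
        exact (V.valuation_le_one_iff _).1 h1.le
      | algebraMap r => exact hkV r
      | add x y _ _ hx hy => exact add_mem hx hy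
      | mul x y _ _ hx hy => exact mul_mem hx hy
    refine ⟨h2, fun a ha => ?_⟩
    rw [Ideal.mem_span_singleton] at ha
    obtain ⟨b, rfl⟩ := ha
    have h3 : ((gen kb s * b : A) : N) = s * (b : N) := rfl
    rw [h3, map_mul]
    exact mul_lt_one_of_lt_of_le h1 ((V.valuation_le_one_iff _).2 (h2 b))
  have hcom : ∀ (V : ValuationSubring N) (x : L), (V.comap (algebraMap L N)).valuation x < 1 ↔
      V.valuation (x : N) < 1 := by
    intro V x
    by_cases hx0 : x = 0
    · subst hx0
      simp
    · have hx0' : (x : N) ≠ 0 := fun h => hx0 (Subtype.ext h)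
      rw [val_lt_one_iff_inv _ hx0, val_lt_one_iff_inv _ hx0', ValuationSubring.mem_comap, map_inv₀]
      rfl
  have hxL : x ∈ L := by
    have h1 : IntermediateField.adjoin kb (F : Set N) ≤ L.restrictScalars kb := by
      rw [IntermediateField.adjoin_le_iff]
      intro y hy
      exact IntermediateField.subset_adjoin K (F : Set N) hy
    exact h1 hx
  have hfinal := hU (W.comap (algebraMap L N)) (W'.comap (algebraMap L N))
    (fun a => (hAW W hk hTW).1 a) (fun a => (hAW W' hk' hTW').1 a)
    (fun a ha => (hcom _ _).2 ((hAW W hk hTW).2 a ha))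
    (fun a ha => (hcom _ _).2 ((hAW W' hk' hTW').2 a ha))
    (fun u hu huW => hUW _ (Finset.mem_image_of_mem _ hu) huW)
  exact hfinal (x := (⟨x, hxL⟩ : L)) hxW

end app

end P025H937
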