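import Vale.Agent.P025.R2.H373.Gauss5
import Vale.Agent.P025.R2.H937.Quad
import Vale.Agent.P025.R2.H937.Sep

/-!
# P025, A side, item (2e) (helper937): the unit ball of `A2`
-/

set_option linter.unusedSectionVars false

open Polynomial Filter Topology

universe u v

namespace P025H937

open P025H373

section

variable {C : Type u} [NontriviallyNormedField C] [IsUltrametricDist C] [CompleteSpace C]
  [IsAlgClosed C]

variable (C) in
/-- the unit ball of `A2` -/
def B0 : Subring (A2 C) where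
  carrier := {x | ‖(x : F0 C)‖ ≤ 1}
  mul_mem' := fun {a b} ha hb => by
    change ‖(a : F0 C) * (b : F0 C)‖ ≤ 1
    rw [norm_mul]
    exact mul_le_one₀ ha (norm_nonneg _) hb
  one_mem' := by
    change ‖(1 : F0 C)‖ ≤ 1
    rw [norm_one]
  add_mem' := fun {a b} ha hb => by
    change ‖(a : F0 C) + (b : F0 C)‖ ≤ 1
    exact (IsUltrametricDist.norm_add_le_max _ _).trans (max_le ha hb)
  zero_mem' := by
    change ‖(0 : F0 C)‖ ≤ 1
    rw [norm_zero]
    exact zero_le_one
  neg_mem' := fun {a} ha => by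
    change ‖-(a : F0 C)‖ ≤ 1
    rw [norm_neg]
    exact ha

theorem mem_B0 {x : A2 C} : x ∈ B0 C ↔ ‖(x : F0 C)‖ ≤ 1 := Iff.rfl

/-- constants -/
noncomputable def cB (c : C) (h : ‖c‖ ≤ 1) : B0 C := ⟨algebraMap C (A2 C) c, by
  rw [mem_B0]
  change ‖algebraMap C (F0 C) c‖ ≤ 1
  rwa [norm_algebraMap_C]⟩

theorem coe_cB (c : C) (h : ‖c‖ ≤ 1) : (((cB c h : B0 C) : A2 C) : F0 C) = algebraMap C (F0 C) c :=
  rfl

theorem cB_dvd_iff {c : C} (h0 : c ≠ 0) (h : ‖c‖ ≤ 1) (n : ℕ) (x : B0 C) :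
    cB c h ^ n ∣ x ↔ ‖((x : A2 C) : F0 C)‖ ≤ ‖c‖ ^ n := by
  have hc0 : ‖c‖ ≠ 0 := by rwa [Ne, norm_eq_zero]
  have hpos : 0 < ‖c‖ ^ n := pow_pos (norm_pos_iff.2 h0) n
  constructor
  · rintro ⟨y, rfl⟩
    have e : (((cB c h ^ n * y : B0 C) : A2 C) : F0 C) =
        (algebraMap C (F0 C) c) ^ n * ((y : A2 C) : F0 C) := rfl
    rw [e, norm_mul, norm_pow, norm_algebraMap_C]
    exact mul_le_of_le_one_right hpos.le y.2
  · intro hx
    let y : A2 C := algebraMap C (A2 C) ((c ^ n)⁻¹) * (x : A2 C)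
    have hy : y ∈ B0 C := by
      rw [mem_B0]
      change ‖algebraMap C (F0 C) ((c ^ n)⁻¹) * ((x : A2 C) : F0 C)‖ ≤ 1
      rw [norm_mul, norm_algebraMap_C, norm_inv, norm_pow, inv_mul_le_iff₀ hpos, mul_one]
      exact hx
    refine ⟨⟨y, hy⟩, ?_⟩
    apply Subtype.ext
    apply Subtype.ext
    change ((x : A2 C) : F0 C) = (algebraMap C (F0 C) c) ^ n *
      (algebraMap C (F0 C) ((c ^ n)⁻¹) * ((x : A2 C) : F0 C))
    rw [← mul_assoc, ← map_pow, ← map_mul, mul_inv_cancel₀ (pow_ne_zero _ h0), map_one, one_mul]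

theorem piComplete_B0 {c : C} (h0 : c ≠ 0) (h1 : ‖c‖ < 1) : PiComplete (cB c h1.le) where
  sep x hx := by
    apply Subtype.ext
    apply Subtype.ext
    change ((x : A2 C) : F0 C) = 0
    rw [← norm_le_zero_iff]
    have h2 : ∀ n : ℕ, ‖((x : A2 C) : F0 C)‖ ≤ ‖c‖ ^ n := fun n =>
      (cB_dvd_iff h0 h1.le n x).1 (hx n)
    exact ge_of_tendsto' (tendsto_pow_atTop_nhds_zero_of_lt_one (norm_nonneg c) h1) h2
  lim f hf := by
    let g : ℕ → F0 C := fun n => ((f n : A2 C) : F0 C)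
    have hg : ∀ n, ‖g (n + 1) - g n‖ ≤ ‖c‖ ^ n := fun n => (cB_dvd_iff h0 h1.le n _).1 (hf n)
    have hc : CauchySeq g := by
      apply cauchySeq_of_le_geometric ‖c‖ 1 h1
      intro n
      rw [dist_comm, dist_eq_norm, one_mul]
      exact hg n
    obtain ⟨l, hl⟩ := cauchySeq_tendsto_of_complete hc
    have hgm : ∀ n m, ‖g (n + m) - g n‖ ≤ ‖c‖ ^ n := by
      intro n m
      induction m with
      | zero =>
        rw [add_zero, sub_self, norm_zero]
        positivity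
      | succ m ih =>
        have e : g (n + (m + 1)) - g n = (g (n + m + 1) - g (n + m)) + (g (n + m) - g n) := by
          rw [← add_assoc]; ring
        rw [e]
        refine (IsUltrametricDist.norm_add_le_max _ _).trans (max_le ?_ ih)
        exact (hg _).trans (pow_le_pow_of_le_one (norm_nonneg _) h1.le (Nat.le_add_right n m))
    have hln : ∀ n, ‖l - g n‖ ≤ ‖c‖ ^ n := by
      intro n
      have h2 : Tendsto (fun m => ‖g (n + m) - g n‖) atTop (𝓝 ‖l - g n‖) := by
        refine ((Tendsto.sub_const ?_ _)).norm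
        have h3 := hl.comp (tendsto_add_atTop_nat n)
        refine h3.congr ?_
        intro m
        rw [Function.comp_apply, add_comm]
      exact le_of_tendsto' h2 (hgm n)
    have hlA : l ∈ A2 C := isClosed_A2.mem_of_tendsto hl (Eventually.of_forall fun n => (f n : A2 C).2)
    have hlB : (⟨l, hlA⟩ : A2 C) ∈ B0 C := by
      rw [mem_B0]
      exact le_of_tendsto' hl.norm (fun n => (f n).2)
    refine ⟨⟨⟨l, hlA⟩, hlB⟩, fun n => ?_⟩
    rw [cB_dvd_iff h0]
    exact hln n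

/-- integrality over the unit ball -/
def IntB {K : Type v} [CommRing K] (φ : A2 C →+* K) (z : K) : Prop :=
  (φ.comp (B0 C).subtype).IsIntegralElem z

theorem isUnit_one_add {c : C} (h1 : ‖c‖ < 1) (r : A2 C) (hr : ‖(r : F0 C)‖ ≤ 1) :
    IsUnit (1 + algebraMap C (A2 C) c * r) := by
  have h2 : ‖algebraMap C (F0 C) c * (r : F0 C)‖ < 1 := by
    rw [norm_mul, norm_algebraMap_C]
    exact mul_lt_one_of_nonneg_of_lt_one_left (norm_nonneg _) h1 hr
  have h3 : algebraMap C (F0 C) c * (r : F0 C) ∈ A2 C := mul_mem ((A2 C).algebraMap_mem c) r.2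
  obtain ⟨h4, -⟩ := exists_inv_A2 h3 h2
  have h5 : (1 + algebraMap C (F0 C) c * (r : F0 C)) ≠ 0 := by
    intro h0
    have h6 : algebraMap C (F0 C) c * (r : F0 C) = -1 := by linear_combination h0
    rw [h6, norm_neg, norm_one] at h2
    exact lt_irrefl _ h2
  refine IsUnit.of_mul_eq_one ⟨_, h4⟩ ?_
  apply Subtype.ext
  exact mul_inv_cancel₀ h5

end

end P025H937
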