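import Vale.Agent.P025.R2.H937.Res

/-!
# Leading elements (helper937)

`W` a valuation ring of `N` over `kb` with residue field `kb`.  Every nonzero element of `NC` has the
same value as an element of `N`, for every extension of `W` which contains `C`.
-/

open Polynomial
open scoped TensorProduct

universe x

namespace P025H937

open P025H720

section span

variable {kb N : Type*} [Field kb] [Field N] [Algebra kb N] (W : ValuationSubring N)

/-- nonzero elements with different values -/
def Good (E : Finset N) : Prop := (∀ e ∈ E, e ≠ 0) ∧ Set.InjOn W.valuation (E : Set N)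

variable (hk : ∀ a : kb, algebraMap kb N a ∈ W) {T : N} (hT : T ∉ W) [IsAlgClosed kb]
  [TrdegOne kb N]

include hk hT

theorem exists_good_insert [DecidableEq N] (k : ℕ) : ∀ (E : Finset N), Good W E → ∀ x : N,
    (E.filter fun e => W.valuation e ≤ W.valuation x).card ≤ k →
    ∃ E' : Finset N, E ⊆ E' ∧ Good W E' ∧ x ∈ Submodule.span kb (E' : Set N) := by
  induction k with
  | zero =>
    intro E hE x hx
    by_cases hx0 : x = 0
    · exact ⟨E, Finset.Subset.refl _, hE, by rw [hx0]; exact zero_mem _⟩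
    have h1 : ∀ e ∈ E, W.valuation e ≠ W.valuation x := by
      intro e he h
      have h2 : e ∈ E.filter fun e => W.valuation e ≤ W.valuation x := by
        rw [Finset.mem_filter]
        exact ⟨he, h.le⟩
      rw [Nat.le_zero, Finset.card_eq_zero] at hx
      rw [hx] at h2
      exact Finset.notMem_empty _ h2
    refine ⟨insert x E, Finset.subset_insert _ _, ⟨?_, ?_⟩, Submodule.subset_span (by simp)⟩
    · intro e he
      rw [Finset.mem_insert] at he
      rcases he with rfl | he
      · exact hx0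
      · exact hE.1 e he
    · intro a ha b hb hab
      rw [Finset.mem_coe, Finset.mem_insert] at ha hb
      rcases ha with rfl | ha <;> rcases hb with rfl | hb
      · rfl
      · exact absurd hab.symm (h1 _ hb)
      · exact absurd hab (h1 _ ha)
      · exact hE.2 ha hb hab
  | succ k ih =>
    intro E hE x hx
    by_cases hx0 : x = 0
    · exact ⟨E, Finset.Subset.refl _, hE, by rw [hx0]; exact zero_mem _⟩
    by_cases h1 : ∃ e ∈ E, W.valuation e = W.valuation x
    · obtain ⟨e, he, hex⟩ := h1
      have he0 := hE.1 e he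
      have hve0 : W.valuation e ≠ 0 := (_root_.map_ne_zero _).mpr he0
      have hmem : x / e ∈ W := by
        rw [← W.valuation_le_one_iff, map_div₀, hex, div_self (hex ▸ hve0)]
      obtain ⟨a, ha⟩ := exists_res W hk hT hmem
      have h2 : W.valuation (x - algebraMap kb N a * e) < W.valuation e := by
        have h3 : x - algebraMap kb N a * e = (x / e - algebraMap kb N a) * e := by
          rw [sub_mul, div_mul_cancel₀ _ he0]
        rw [h3, map_mul]
        calc W.valuation (x / e - algebraMap kb N a) * W.valuation e <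
            1 * W.valuation e := mul_lt_mul_of_pos_right ha (zero_lt_iff.mpr hve0)
          _ = W.valuation e := one_mul _
      obtain ⟨E', h3, h4, h5⟩ := ih E hE (x - algebraMap kb N a * e) (by
        have h6 : (E.filter fun e' => W.valuation e' ≤ W.valuation (x - algebraMap kb N a * e)) ⊂
            E.filter fun e' => W.valuation e' ≤ W.valuation x := by
          rw [Finset.ssubset_iff_of_subset]
          · refine ⟨e, ?_, ?_⟩
            · rw [Finset.mem_filter]
              exact ⟨he, hex.le⟩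
            · rw [Finset.mem_filter, not_and, not_le]
              intro _
              exact h2
          · intro e' he'
            rw [Finset.mem_filter] at he' ⊢
            exact ⟨he'.1, he'.2.trans (h2.le.trans hex.le)⟩
        have h7 := Finset.card_lt_card h6
        omega)
      refine ⟨E', h3, h4, ?_⟩
      have h6 : x = (x - algebraMap kb N a * e) + a • e := by
        rw [Algebra.smul_def]; ring
      rw [h6]
      exact add_mem h5 (Submodule.smul_mem _ _ (Submodule.subset_span (h3 he)))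
    · push Not at h1
      refine ⟨insert x E, Finset.subset_insert _ _, ⟨?_, ?_⟩, Submodule.subset_span (by simp)⟩
      · intro e he
        rw [Finset.mem_insert] at he
        rcases he with rfl | he
        · exact hx0
        · exact hE.1 e he
      · intro a ha b hb hab
        rw [Finset.mem_coe, Finset.mem_insert] at ha hb
        rcases ha with rfl | ha <;> rcases hb with rfl | hb
        · rfl
        · exact absurd hab.symm (h1 _ hb)
        · exact absurd hab (h1 _ ha)
        · exact hE.2 ha hb hab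

theorem exists_good (s : Finset N) : ∃ E : Finset N, Good W E ∧
    ∀ x ∈ s, x ∈ Submodule.span kb (E : Set N) := by
  classical
  induction s using Finset.induction_on with
  | empty =>
    exact ⟨∅, ⟨fun e he => absurd he (Finset.notMem_empty _), by simp⟩,
      fun x hx => absurd hx (Finset.notMem_empty _)⟩
  | insert a s _ ih =>
    obtain ⟨E, hE, h⟩ := ih
    obtain ⟨E', h1, h2, h3⟩ := exists_good_insert W hk hT _ E hE a le_rfl
    refine ⟨E', h2, ?_⟩
    intro x hx
    rw [Finset.mem_insert] at hx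
    rcases hx with rfl | hx
    · exact h3
    · exact Submodule.span_mono (Finset.coe_subset.mpr h1) (h x hx)

end span

section lead

variable {C kb N : Type*} [Field C] [Field kb] [Field N] [Algebra kb C] [Algebra kb N]
  (W : ValuationSubring N)

theorem mem_span_fin (z : C ⊗[kb] N) : ∃ s : Finset N,
    z ∈ Submodule.span C ((fun n => (1 : C) ⊗ₜ[kb] n) '' (s : Set N)) := by
  classical
  induction z using TensorProduct.induction_on with
  | zero => exact ⟨∅, zero_mem _⟩
  | tmul c n =>
    refine ⟨{n}, ?_⟩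
    have h1 : c ⊗ₜ[kb] n = c • ((1 : C) ⊗ₜ[kb] n) := by
      rw [TensorProduct.smul_tmul', smul_eq_mul, mul_one]
    rw [h1]
    exact Submodule.smul_mem _ _ (Submodule.subset_span ⟨n, by simp, rfl⟩)
  | add x y hx hy =>
    obtain ⟨s, hs⟩ := hx
    obtain ⟨t, ht⟩ := hy
    refine ⟨s ∪ t, add_mem (Submodule.span_mono ?_ hs) (Submodule.span_mono ?_ ht)⟩
    · exact Set.image_mono (by simp)
    · exact Set.image_mono (by simp)

variable (hk : ∀ a : kb, algebraMap kb N a ∈ W) {T : N} (hT : T ∉ W) [IsAlgClosed kb]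
  [TrdegOne kb N]

include hk hT

theorem exists_good_rep (z : C ⊗[kb] N) : ∃ (E : Finset N) (c : N → C), Good W E ∧
    z = ∑ e ∈ E, c e ⊗ₜ[kb] e := by
  classical
  obtain ⟨s, hs⟩ := mem_span_fin z
  obtain ⟨E, hE, h⟩ := exists_good W hk hT s
  have h1 : z ∈ Submodule.span C ((fun n => (1 : C) ⊗ₜ[kb] n) '' (E : Set N)) := by
    refine (Submodule.span_le.mpr ?_) hs
    rintro _ ⟨n, hn, rfl⟩
    have hn' := h n hn
    change (1 : C) ⊗ₜ[kb] n ∈ Submodule.span C ((fun n => (1 : C) ⊗ₜ[kb] n) '' (E : Set N))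
    clear hn
    induction hn' using Submodule.span_induction with
    | mem x hx => exact Submodule.subset_span ⟨x, hx, rfl⟩
    | zero => rw [TensorProduct.tmul_zero]; exact zero_mem _
    | add x y _ _ hx hy => rw [TensorProduct.tmul_add]; exact add_mem hx hy
    | smul a x _ hx =>
      have h2 : (1 : C) ⊗ₜ[kb] (a • x) = algebraMap kb C a • ((1 : C) ⊗ₜ[kb] x) := by
        rw [TensorProduct.smul_tmul', smul_eq_mul, mul_one, Algebra.algebraMap_eq_smul_one,
          TensorProduct.smul_tmul]
      rw [h2]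
      exact Submodule.smul_mem _ _ hx
  rw [Submodule.mem_span_image_finset_iff_exists_fun'] at h1
  obtain ⟨f, hf⟩ := h1
  refine ⟨E, f, hE, ?_⟩
  rw [← hf]
  apply Finset.sum_congr rfl
  intro e _
  rw [TensorProduct.smul_tmul', smul_eq_mul, mul_one]

/-- LEADING ELEMENTS -/
theorem exists_lead {z : C ⊗[kb] N} (hz : z ≠ 0) : ∃ e : N, e ≠ 0 ∧
    ∀ {Ω : Type x} [Field Ω] (ψ : C ⊗[kb] N →+* Ω) (O : ValuationSubring Ω),
      (∀ c : C, ψ (c ⊗ₜ 1) ∈ O) → (∀ n : N, ψ (1 ⊗ₜ n) ∈ O ↔ n ∈ W) →
        O.valuation (ψ z) = O.valuation (ψ (1 ⊗ₜ e)) := by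
  classical
  obtain ⟨E, c, hE, rfl⟩ := exists_good_rep W hk hT z
  have hne : (E.filter fun e => c e ≠ 0).Nonempty := by
    rw [Finset.nonempty_iff_ne_empty]
    intro h
    apply hz
    apply Finset.sum_eq_zero
    intro e he
    have h1 : c e = 0 := by
      by_contra h2
      have h3 : e ∈ E.filter fun e => c e ≠ 0 := Finset.mem_filter.mpr ⟨he, h2⟩
      rw [h] at h3
      exact Finset.notMem_empty _ h3
    rw [h1, TensorProduct.zero_tmul]
  obtain ⟨e, he, hmax⟩ := Finset.exists_max_image _ (fun e => W.valuation e) hne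
  rw [Finset.mem_filter] at he
  refine ⟨e, hE.1 e he.1, ?_⟩
  intro Ω _ ψ O hC hN
  -- constants are units
  have hc1 : ∀ a : C, a ≠ 0 → O.valuation (ψ (a ⊗ₜ 1)) = 1 := by
    intro a ha
    have h1 : O.valuation (ψ (a ⊗ₜ 1)) ≤ 1 := (O.valuation_le_one_iff _).mpr (hC a)
    have h2 : O.valuation (ψ (a⁻¹ ⊗ₜ 1)) ≤ 1 := (O.valuation_le_one_iff _).mpr (hC _)
    have h3 : O.valuation (ψ (a ⊗ₜ 1)) * O.valuation (ψ (a⁻¹ ⊗ₜ 1)) = 1 := by
      rw [← map_mul, ← map_mul, Algebra.TensorProduct.tmul_mul_tmul, mul_inv_cancel₀ ha, one_mul,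
        ← Algebra.TensorProduct.one_def, map_one, map_one]
    refine le_antisymm h1 ?_
    calc (1 : O.ValueGroup) = O.valuation (ψ (a ⊗ₜ 1)) * O.valuation (ψ (a⁻¹ ⊗ₜ 1)) := h3.symm
      _ ≤ O.valuation (ψ (a ⊗ₜ 1)) * 1 := mul_le_mul' le_rfl h2
      _ = _ := mul_one _
  -- comparison of the values of elements of `N`
  let ι : N →+* Ω := ψ.comp (Algebra.TensorProduct.includeRight (R := kb) (A := C) (B := N)).toRingHom
  have hι : ∀ n : N, ι n = ψ (1 ⊗ₜ n) := fun n => rfl
  have hlt : ∀ a b : N, b ≠ 0 → W.valuation a < W.valuation b →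
      O.valuation (ι a) < O.valuation (ι b) := by
    intro a b hb hab
    by_contra hcon
    rw [not_lt] at hcon
    have hb0 : O.valuation (ι b) ≠ 0 := by
      rw [Ne, map_eq_zero, map_eq_zero]; exact hb
    by_cases ha : a = 0
    · rw [ha, map_zero, map_zero] at hcon
      exact hb0 (le_antisymm hcon zero_le)
    have ha0 : O.valuation (ι a) ≠ 0 := by
      rw [Ne, map_eq_zero, map_eq_zero]; exact ha
    have h1 : ψ (1 ⊗ₜ (b / a)) ∈ O := by
      rw [← hι, ← O.valuation_le_one_iff, map_div₀, map_div₀]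
      rwa [div_le_one₀ (zero_lt_iff.mpr ha0)]
    rw [hN, ← W.valuation_le_one_iff, map_div₀, div_le_one₀ (zero_lt_iff.mpr (by
      rw [Ne, map_eq_zero]; exact ha))] at h1
    exact absurd hab (not_lt.mpr h1)
  have hterm : ∀ e' : N, c e' ≠ 0 → O.valuation (ψ (c e' ⊗ₜ e')) = O.valuation (ι e') := by
    intro e' h
    have h1 : c e' ⊗ₜ[kb] e' = (c e' ⊗ₜ 1) * (1 ⊗ₜ e') := by
      rw [Algebra.TensorProduct.tmul_mul_tmul, mul_one, one_mul]
    rw [h1, map_mul, map_mul, hc1 _ h, one_mul]
    rfl
  have he0 : e ≠ 0 := hE.1 e he.1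
  have hve0 : O.valuation (ι e) ≠ 0 := by
    rw [Ne, map_eq_zero, map_eq_zero]; exact he0
  rw [← hι, ← hterm e he.2, map_sum]
  refine Valuation.map_sum_eq_of_lt (f := fun i => ψ (c i ⊗ₜ[kb] i)) _ he.1 ?_
  intro e' he'
  rw [Finset.mem_sdiff, Finset.mem_singleton] at he'
  rw [hterm e he.2]
  by_cases h0 : c e' = 0
  · rw [h0, TensorProduct.zero_tmul, map_zero, map_zero]
    exact zero_lt_iff.mpr hve0
  · rw [hterm e' h0]
    apply hlt _ _ he0
    refine lt_of_le_of_ne (hmax e' (Finset.mem_filter.mpr ⟨he'.1, h0⟩)) ?_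
    intro h1
    exact he'.2 (hE.2 he'.1 he.1 h1)

/-- leading elements in `NC` -/
theorem exists_lead_NC {z : NC C kb N} (hz : z ≠ 0) : ∃ e : N, e ≠ 0 ∧
    ∀ {Ω : Type x} [Field Ω] (ψ : NC C kb N →+* Ω) (O : ValuationSubring Ω),
      (∀ c : C, ψ (algebraMap C (NC C kb N) c) ∈ O) →
      (∀ n : N, ψ (algebraMap N (NC C kb N) n) ∈ O ↔ n ∈ W) →
        O.valuation (ψ z) = O.valuation (ψ (algebraMap N (NC C kb N) e)) := by
  obtain ⟨a, b, hb, rfl⟩ := IsFractionRing.div_surjective (A := C ⊗[kb] N) (K := NC C kb N) z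
  have hb0 : b ≠ 0 := nonZeroDivisors.ne_zero hb
  have ha0 : a ≠ 0 := by
    rintro rfl
    apply hz
    rw [map_zero, zero_div]
  obtain ⟨e₁, h1, h1'⟩ := exists_lead.{x} (C := C) W hk hT ha0
  obtain ⟨e₂, h2, h2'⟩ := exists_lead.{x} (C := C) W hk hT hb0
  refine ⟨e₁ / e₂, div_ne_zero h1 h2, ?_⟩
  intro Ω _ ψ O hC hN
  let χ : C ⊗[kb] N →+* Ω := ψ.comp (algebraMap (C ⊗[kb] N) (NC C kb N))
  have e1 := h1' χ O hC hN
  have e2 := h2' χ O hC hN
  rw [map_div₀, map_div₀, map_div₀, map_div₀, map_div₀]
  exact congrArg₂ (· / ·) e1 e2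

end lead

end P025H937
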