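import Vale.Agent.P025.R2.H937.Inf
import Vale.Agent.P025.R2.H937.Lead

/-!
# Abstract valuation rings at infinity (helper937)

`InfV C V`: `V` is a valuation ring of the `C(t)`-field `A` which contains `C` but not `t`, has rank
one, and `C(t)` is dense.  Example: `Oinf C` in `F2 C`.
-/

set_option linter.unusedSectionVars false

open Polynomial

universe u v w x y

namespace P025H937

open P025H373

/-- valuation ring at infinity -/
structure InfV (C : Type u) [Field C] {A : Type y} [Field A] [Algebra (RatFunc C) A]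
    (V : ValuationSubring A) : Prop where
  const : ∀ c : C, algebraMap (RatFunc C) A (RatFunc.C c) ∈ V
  X : algebraMap (RatFunc C) A RatFunc.X ∉ V
  approx : ∀ (x : A) (m : ℕ), ∃ p : RatFunc C,
    algebraMap (RatFunc C) A RatFunc.X ^ m * (x - algebraMap (RatFunc C) A p) ∈ V
  pow : ∀ x : A, ∃ m : ℕ, (algebraMap (RatFunc C) A RatFunc.X)⁻¹ ^ m * x ∈ V

/-- the residue map of a valuation ring with residue field `K` -/
theorem exists_resHom {K L : Type*} [Field K] [Field L] [Algebra K L] (V : ValuationSubring L)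
    (hk : ∀ c : K, algebraMap K L c ∈ V)
    (hres : ∀ x ∈ V, ∃ c : K, V.valuation (x - algebraMap K L c) < 1) :
    ∃ r : V →+* K, (∀ c : K, r ⟨algebraMap K L c, hk c⟩ = c) ∧
      ∀ x : V, r x = 0 ↔ V.valuation (x : L) < 1 := by
  let i : K →+* V := (algebraMap K L).codRestrict V.toSubring hk
  let j : K →+* IsLocalRing.ResidueField V := (IsLocalRing.residue V).comp i
  have hval : ∀ x : V, IsLocalRing.residue V x = 0 ↔ V.valuation (x : L) < 1 := by
    intro x
    rw [IsLocalRing.residue_eq_zero_iff, ValuationSubring.valuation_lt_one_iff]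
  have hj : Function.Bijective j := by
    refine ⟨j.injective, ?_⟩
    intro y
    obtain ⟨x, rfl⟩ := IsLocalRing.residue_surjective y
    obtain ⟨c, hc⟩ := hres x x.2
    refine ⟨c, ?_⟩
    have h1 : IsLocalRing.residue V (x - i c) = 0 := by
      rw [hval]; exact hc
    rw [map_sub, sub_eq_zero] at h1
    exact h1.symm
  let e := RingEquiv.ofBijective j hj
  refine ⟨e.symm.toRingHom.comp (IsLocalRing.residue V), ?_, ?_⟩
  · intro c
    change e.symm (IsLocalRing.residue V (i c)) = c
    rw [RingEquiv.symm_apply_eq]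
    rfl
  · intro x
    change e.symm (IsLocalRing.residue V x) = 0 ↔ _
    rw [EmbeddingLike.map_eq_zero_iff, hval]

section rat

variable {C : Type u} [Field C]

theorem aeval_ratX (P : C[X]) : aeval (RatFunc.X : RatFunc C) P = algebraMap C[X] (RatFunc C) P := by
  rw [← RatFunc.algebraMap_X, aeval_algebraMap_apply, aeval_X_left_apply]

/-- valuation rings of `C(t)` containing `C` but not `t` -/
theorem mem_rat_iff {W : ValuationSubring (RatFunc C)} (hk : ∀ c : C, algebraMap C (RatFunc C) c ∈ W)
    (hX : (RatFunc.X : RatFunc C) ∉ W) (f : RatFunc C) :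
    f ∈ W ↔ f = 0 ∨ f.num.natDegree ≤ f.denom.natDegree := by
  by_cases h0 : f = 0
  · rw [h0]
    exact ⟨fun _ => Or.inl rfl, fun _ => zero_mem _⟩
  have h1 : W.valuation (algebraMap C[X] (RatFunc C) f.num) =
      W.valuation (RatFunc.X : RatFunc C) ^ f.num.natDegree := by
    rw [← aeval_ratX]
    exact val_aeval W hk hX (RatFunc.num_ne_zero h0)
  have h2 : W.valuation (algebraMap C[X] (RatFunc C) f.denom) =
      W.valuation (RatFunc.X : RatFunc C) ^ f.denom.natDegree := by
    rw [← aeval_ratX]
    exact val_aeval W hk hX f.denom_ne_zero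
  have h3 : 1 < W.valuation (RatFunc.X : RatFunc C) := one_lt_val W hX
  have h4 : 0 < W.valuation (RatFunc.X : RatFunc C) ^ f.denom.natDegree :=
    pow_pos (zero_lt_one.trans h3) _
  rw [← W.valuation_le_one_iff, or_iff_right h0]
  conv_lhs => rw [← f.num_div_denom]
  rw [map_div₀, h1, h2, div_le_one₀ h4]
  exact pow_le_pow_iff_right₀ h3

theorem exists_res_rat {W : ValuationSubring (RatFunc C)}
    (hk : ∀ c : C, algebraMap C (RatFunc C) c ∈ W)
    (hX : (RatFunc.X : RatFunc C) ∉ W) {f : RatFunc C} (hf : f ∈ W) :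
    ∃ c : C, W.valuation (f - algebraMap C (RatFunc C) c) < 1 := by
  rcases (mem_rat_iff hk hX f).mp hf with h0 | hd
  · exact ⟨0, by rw [h0, map_zero, sub_zero, map_zero]; exact zero_lt_one⟩
  set D := f.denom.natDegree with hD
  have hX0 : (RatFunc.X : RatFunc C) ≠ 0 := RatFunc.X_ne_zero
  have h1 := val_aeval_sub W hk hX hd
  have h2 := val_aeval_sub W hk hX (le_refl f.denom.natDegree)
  rw [aeval_ratX] at h1 h2
  rw [← hD] at h2
  have hl : f.denom.coeff D ≠ 0 := leadingCoeff_ne_zero.mpr f.denom_ne_zero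
  set a := (RatFunc.X : RatFunc C)⁻¹ ^ D * algebraMap C[X] (RatFunc C) f.num with ha
  set b := (RatFunc.X : RatFunc C)⁻¹ ^ D * algebraMap C[X] (RatFunc C) f.denom with hb
  set α := f.num.coeff D
  set β := f.denom.coeff D
  have hβ : W.valuation (algebraMap C (RatFunc C) β) = 1 := val_const_N W hk hl
  have hb1 : W.valuation b = 1 := by
    have h4 : b = (b - algebraMap C (RatFunc C) β) + algebraMap C (RatFunc C) β := by ring
    rw [h4, Valuation.map_add_eq_of_lt_right _ (by rw [hβ]; exact h2), hβ]
  have hb0 : b ≠ 0 := by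
    intro h
    rw [h, map_zero] at hb1
    exact zero_ne_one hb1
  have hβ0 : algebraMap C (RatFunc C) β ≠ 0 := by rwa [Ne, map_eq_zero]
  have hf' : f = a / b := by
    rw [ha, hb, mul_div_mul_left _ _ (pow_ne_zero _ (inv_ne_zero hX0)), f.num_div_denom]
  refine ⟨α / β, ?_⟩
  have h5 : f - algebraMap C (RatFunc C) (α / β) =
      ((a - algebraMap C (RatFunc C) α) * algebraMap C (RatFunc C) β -
        algebraMap C (RatFunc C) α * (b - algebraMap C (RatFunc C) β)) /
        (b * algebraMap C (RatFunc C) β) := by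
    rw [hf', map_div₀]
    field_simp
    ring
  rw [h5, map_div₀, map_mul, hb1, hβ, one_mul, div_one]
  refine Valuation.map_sub_lt _ ?_ ?_
  · rw [map_mul, hβ, mul_one]; exact h1
  · rw [map_mul, mul_comm]
    exact mul_lt_one_of_lt_of_le h2 (val_const_le W hk _)

section memiff

variable {A : Type y} [Field A] [Algebra (RatFunc C) A] {V : ValuationSubring A}

variable {Ω : Type x} [Field Ω] {O : ValuationSubring Ω} {φ : A →+* Ω}

/-- `V` is the only valuation ring of `A` below -/
theorem InfV.mem_iff (hV : InfV C V) (h1 : ∀ x ∈ V, φ x ∈ O)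
    (h2 : φ (algebraMap (RatFunc C) A RatFunc.X) ∉ O) (x : A) : φ x ∈ O ↔ x ∈ V := by
  refine ⟨fun hx => ?_, h1 x⟩
  obtain ⟨p, hp⟩ := hV.approx x 0
  rw [pow_zero, one_mul] at hp
  let W : ValuationSubring (RatFunc C) := V.comap (algebraMap (RatFunc C) A)
  let W' : ValuationSubring (RatFunc C) := O.comap (φ.comp (algebraMap (RatFunc C) A))
  have hp' : p ∈ W' := by
    change φ (algebraMap (RatFunc C) A p) ∈ O
    have h3 : algebraMap (RatFunc C) A p = x - (x - algebraMap (RatFunc C) A p) := by ring
    rw [h3, map_sub]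
    exact sub_mem hx (h1 _ hp)
  have h4 : p ∈ W := by
    rw [mem_rat_iff (W := W) hV.const hV.X]
    exact (mem_rat_iff (W := W') (fun c => h1 _ (hV.const c)) h2 p).mp hp'
  have h5 : x = (x - algebraMap (RatFunc C) A p) + algebraMap (RatFunc C) A p := by ring
  rw [h5]
  exact add_mem hp h4

end memiff

variable {A : Type y} [Field A] [Algebra (RatFunc C) A] [Algebra C A]
  [IsScalarTower C (RatFunc C) A] {V : ValuationSubring A}

theorem InfV.constA (hV : InfV C V) (c : C) : algebraMap C A c ∈ V := by
  rw [IsScalarTower.algebraMap_apply C (RatFunc C) A]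
  exact hV.const c

theorem InfV.exists_res (hV : InfV C V) {x : A} (hx : x ∈ V) :
    ∃ c : C, V.valuation (x - algebraMap C A c) < 1 := by
  obtain ⟨p, hp⟩ := hV.approx x 1
  rw [pow_one] at hp
  have h1 : V.valuation (x - algebraMap (RatFunc C) A p) < 1 := by
    have h2 : 1 < V.valuation (algebraMap (RatFunc C) A RatFunc.X) := one_lt_val V hV.X
    rw [← V.valuation_le_one_iff, map_mul] at hp
    by_contra hcon
    rw [not_lt] at hcon
    have h3 : 1 < V.valuation (algebraMap (RatFunc C) A RatFunc.X) *
        V.valuation (x - algebraMap (RatFunc C) A p) := by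
      calc (1 : V.ValueGroup) < V.valuation (algebraMap (RatFunc C) A RatFunc.X) := h2
        _ = V.valuation (algebraMap (RatFunc C) A RatFunc.X) * 1 := (mul_one _).symm
        _ ≤ _ := mul_le_mul' le_rfl hcon
    exact absurd hp (not_le.mpr h3)
  let W : ValuationSubring (RatFunc C) := V.comap (algebraMap (RatFunc C) A)
  have hk : ∀ c : C, algebraMap C (RatFunc C) c ∈ W := hV.const
  have hX : (RatFunc.X : RatFunc C) ∉ W := hV.X
  have hpW : p ∈ W := by
    change algebraMap (RatFunc C) A p ∈ V
    have h2 : algebraMap (RatFunc C) A p = x - (x - algebraMap (RatFunc C) A p) := by ring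
    rw [h2]
    exact sub_mem hx ((V.valuation_le_one_iff _).mp h1.le)
  obtain ⟨c, hc⟩ := exists_res_rat hk hX hpW
  refine ⟨c, ?_⟩
  have h3 : V.valuation (algebraMap (RatFunc C) A (p - algebraMap C (RatFunc C) c)) < 1 := by
    by_contra hcon
    rw [not_lt] at hcon
    by_cases h0 : p - algebraMap C (RatFunc C) c = 0
    · rw [h0, map_zero, map_zero] at hcon
      exact absurd hcon (not_le.mpr zero_lt_one)
    have h4 : (p - algebraMap C (RatFunc C) c)⁻¹ ∈ W := by
      change algebraMap (RatFunc C) A (p - algebraMap C (RatFunc C) c)⁻¹ ∈ V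
      rw [← V.valuation_le_one_iff, map_inv₀, map_inv₀]
      exact inv_le_one_of_one_le₀ hcon
    rw [← W.valuation_le_one_iff, map_inv₀] at h4
    have h5 : W.valuation (p - algebraMap C (RatFunc C) c) ≠ 0 := (_root_.map_ne_zero _).mpr h0
    rw [inv_le_one₀ (zero_lt_iff.mpr h5)] at h4
    exact absurd hc (not_lt.mpr h4)
  have h6 : x - algebraMap C A c = (x - algebraMap (RatFunc C) A p) +
      algebraMap (RatFunc C) A (p - algebraMap C (RatFunc C) c) := by
    rw [map_sub, ← IsScalarTower.algebraMap_apply C (RatFunc C) A]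
    ring
  rw [h6]
  exact Valuation.map_add_lt _ h1 h3

end rat

section F2

variable {C : Type u} [NontriviallyNormedField C] [IsUltrametricDist C] [CompleteSpace C]
  [IsAlgClosed C]

theorem infV_Oinf : InfV C (Oinf C) where
  const c := a2_mem (algebraMap C (A2 C) c)
  X := t2_not_mem
  approx := exists_approx
  pow := exists_pow_mem

end F2

end P025H937
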