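import Vale.Agent.P025.R2.H937.Amal
import Vale.Agent.P025.R2.H937.InfV
import Vale.Agent.P025.R2.H720.Tree

/-!
# The places contained in a `D`-vertex (helper937)

`Wit V W Θ O`: the valuation ring `O` of `Ω` contains `V`, does not contain `t`, and induces `W` on
`N`, where `Θ : A ⊗ NC → Ω`.
-/

set_option linter.unusedSectionVars false

open Polynomial
open scoped TensorProduct

universe u v w x y

namespace P025H937

open P025H720 P025H544 P025H373

section basic

variable {C : Type u} {kb : Type v} {N : Type w} [Field C]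
  [Field kb] [IsAlgClosed kb] [Field N] [Algebra kb C] [Algebra kb N] [TrdegOne kb N]
  {T : N} [Fact (Transcendental kb T)] {A : Type y} [Field A] [Algebra (RatFunc C) A]

/-- `Θ` and `O` witness that the place `W` lies in the kernel of `Θ` -/
structure Wit (V : ValuationSubring A) (W : ValuationSubring N) {Ω : Type x} [Field Ω]
    (Θ : (A ⊗[RatFunc C] NCT C kb N T) →+* Ω) (O : ValuationSubring Ω) : Prop where
  left : ∀ a ∈ V, Θ (a ⊗ₜ 1) ∈ O
  t : Θ (algebraMap (RatFunc C) A RatFunc.X ⊗ₜ 1) ∉ O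
  mem : ∀ n : N, Θ (1 ⊗ₜ algebraMap N (NCT C kb N T) n) ∈ O ↔ n ∈ W

theorem alg_tmul (f : RatFunc C) : (algebraMap (RatFunc C) A f) ⊗ₜ[RatFunc C]
    (1 : NCT C kb N T) = (1 : A) ⊗ₜ algebraMap (RatFunc C) (NCT C kb N T) f := by
  rw [Algebra.algebraMap_eq_smul_one, Algebra.algebraMap_eq_smul_one, TensorProduct.smul_tmul]

theorem t2_tmul : algebraMap (RatFunc C) A RatFunc.X ⊗ₜ[RatFunc C] (1 : NCT C kb N T) =
    (1 : A) ⊗ₜ algebraMap N (NCT C kb N T) T := by
  rw [alg_tmul, algebraMap_T_X]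

theorem const_tmul (c : C) : algebraMap (RatFunc C) A (RatFunc.C c) ⊗ₜ[RatFunc C]
    (1 : NCT C kb N T) = (1 : A) ⊗ₜ algebraMap C (NCT C kb N T) c := by
  rw [alg_tmul, algebraMap_T_C]

variable {V : ValuationSubring A} {W : ValuationSubring N} {Ω : Type x} [Field Ω]
  {Θ : (A ⊗[RatFunc C] NCT C kb N T) →+* Ω} {O : ValuationSubring Ω}

/-- the restriction to `A` -/
noncomputable def resF (Θ : (A ⊗[RatFunc C] NCT C kb N T) →+* Ω) : A →+* Ω :=
  Θ.comp Algebra.TensorProduct.includeLeftRingHom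

/-- the restriction to `NC` -/
noncomputable def resM (Θ : (A ⊗[RatFunc C] NCT C kb N T) →+* Ω) : NC C kb N →+* Ω :=
  Θ.comp (Algebra.TensorProduct.includeRight (R := RatFunc C) (A := A)
    (B := NCT C kb N T)).toRingHom

/-- the restriction to `N` -/
noncomputable def resN (Θ : (A ⊗[RatFunc C] NCT C kb N T) →+* Ω) : N →+* Ω :=
  (resM Θ).comp (algebraMap N (NC C kb N))

theorem resF_apply (x : A) : resF Θ x = Θ (x ⊗ₜ 1) := rfl
theorem resM_apply (x : NC C kb N) : resM Θ x = Θ (1 ⊗ₜ (x : NCT C kb N T)) := rfl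
theorem resN_apply (x : N) : resN Θ x = Θ (1 ⊗ₜ algebraMap N (NCT C kb N T) x) := rfl

theorem Wit.memN (h : Wit V W Θ O) (n : N) : resN Θ n ∈ O ↔ n ∈ W := h.mem n

theorem resN_T : resN Θ T = resF Θ (algebraMap (RatFunc C) A RatFunc.X) := by
  rw [resN_apply, resF_apply, t2_tmul]

theorem Wit.tN (h : Wit V W Θ O) : resN Θ T ∉ O := by
  rw [resN_T]; exact h.t

theorem Wit.T_notMem (h : Wit V W Θ O) : T ∉ W := fun hT => h.tN ((h.mem T).mpr hT)

theorem resM_C (c : C) : resM Θ (algebraMap C (NC C kb N) c) =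
    resF Θ (algebraMap (RatFunc C) A (RatFunc.C c)) := by
  rw [resM_apply, resF_apply, const_tmul]
  rfl

theorem Wit.memC (hV : InfV C V) (h : Wit V W Θ O) (c : C) :
    resM Θ (algebraMap C (NC C kb N) c) ∈ O := by
  rw [resM_C]
  exact h.left _ (hV.const c)

theorem resN_kb (a : kb) : resN Θ (algebraMap kb N a) =
    resM Θ (algebraMap C (NC C kb N) (algebraMap kb C a)) := by
  change resM Θ (algebraMap N (NC C kb N) (algebraMap kb N a)) = _
  rw [← IsScalarTower.algebraMap_apply kb N (NC C kb N),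
    IsScalarTower.algebraMap_apply kb C (NC C kb N)]

theorem Wit.kb_mem (hV : InfV C V) (h : Wit V W Θ O) (a : kb) : algebraMap kb N a ∈ W := by
  rw [← h.memN, resN_kb]
  exact h.memC hV _

theorem Wit.mem_V (hV : InfV C V) (h : Wit V W Θ O) (y : A) : resF Θ y ∈ O ↔ y ∈ V :=
  hV.mem_iff (φ := resF Θ) h.left h.t y

/-- comparison of values -/
theorem val_le_iff {ι : N →+* Ω} (h : ∀ n, ι n ∈ O ↔ n ∈ W) (a b : N) :
    O.valuation (ι a) ≤ O.valuation (ι b) ↔ W.valuation a ≤ W.valuation b := by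
  by_cases hb : b = 0
  · rw [hb, map_zero, map_zero, map_zero, le_zero_iff, le_zero_iff, map_eq_zero, map_eq_zero,
      map_eq_zero]
  · have h1 : 0 < O.valuation (ι b) := zero_lt_iff.mpr (by
      rw [Ne, map_eq_zero, map_eq_zero]; exact hb)
    have h2 : 0 < W.valuation b := zero_lt_iff.mpr (by rw [Ne, map_eq_zero]; exact hb)
    rw [← div_le_one₀ h1, ← div_le_one₀ h2, ← map_div₀, ← map_div₀, ← map_div₀,
      O.valuation_le_one_iff, W.valuation_le_one_iff, h]

theorem val_lt_iff {ι : N →+* Ω} (h : ∀ n, ι n ∈ O ↔ n ∈ W) (a b : N) :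
    O.valuation (ι a) < O.valuation (ι b) ↔ W.valuation a < W.valuation b := by
  rw [← not_le, ← not_le, val_le_iff h]

/-- every homomorphism to a field contains a place -/
theorem exists_wit (hV : InfV C V) (Θ : (A ⊗[RatFunc C] NCT C kb N T) →+* Ω) :
    ∃ (W : ValuationSubring N) (O : ValuationSubring Ω), Wit V W Θ O := by
  let f : V →+* Ω := (resF Θ).comp V.subtype
  have hf : Function.Injective f := (resF Θ).injective.comp Subtype.val_injective
  have hQ : (IsLocalRing.maximalIdeal V) ≠ ⊤ := Ideal.IsPrime.ne_top'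
  obtain ⟨O, h1, h2⟩ := exists_val f _ hQ (by
    intro a ha
    rw [(injective_iff_map_eq_zero f).mp hf a ha]
    exact zero_mem _)
  refine ⟨O.comap (resN Θ), O, fun a ha => h1 ⟨a, ha⟩, ?_, fun n => Iff.rfl⟩
  intro ht
  have h0 : algebraMap (RatFunc C) A RatFunc.X ≠ 0 := by
    intro h0
    apply hV.X
    rw [h0]
    exact zero_mem _
  have h4 : (algebraMap (RatFunc C) A RatFunc.X)⁻¹ ∈ V :=
    (V.mem_or_inv_mem _).resolve_left hV.X
  have h3 := h2 ⟨_, h4⟩ (by
    rw [ValuationSubring.valuation_lt_one_iff]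
    change V.valuation (algebraMap (RatFunc C) A RatFunc.X)⁻¹ < 1
    rw [map_inv₀]
    exact inv_lt_one_of_one_lt₀ (one_lt_val V hV.X))
  have h5 : f ⟨_, h4⟩ = (resF Θ (algebraMap (RatFunc C) A RatFunc.X))⁻¹ :=
    map_inv₀ (resF Θ) _
  rw [h5, map_inv₀] at h3
  have h6 : O.valuation (resF Θ (algebraMap (RatFunc C) A RatFunc.X)) ≤ 1 :=
    (O.valuation_le_one_iff _).mpr ht
  have h7 : O.valuation (resF Θ (algebraMap (RatFunc C) A RatFunc.X)) ≠ 0 := by
    rw [Ne, map_eq_zero, map_eq_zero]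
    exact h0
  rw [inv_lt_one₀ (zero_lt_iff.mpr h7)] at h3
  exact absurd h6 (not_le.mpr h3)

end basic

section uniq

variable {C : Type u} {kb : Type v} {N : Type w} [Field C]
  [Field kb] [IsAlgClosed kb] [Field N] [Algebra kb C] [Algebra kb N] [TrdegOne kb N]
  {T : N} [Fact (Transcendental kb T)] {A : Type y} [Field A] [Algebra (RatFunc C) A]

theorem exists_rep_N (z : A ⊗[RatFunc C] NCT C kb N T) : ∃ (s : Finset N) (a : N → A),
    z = ∑ n ∈ s, a n ⊗ₜ algebraMap N (NCT C kb N T) n := by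
  classical
  have key : z ∈ Submodule.span A
      ((fun n : N => (1 : A) ⊗ₜ[RatFunc C] algebraMap N (NCT C kb N T) n) '' Set.univ) := by
    induction z using TensorProduct.induction_on with
    | zero => exact zero_mem _
    | add x y hx hy => exact add_mem hx hy
    | tmul a m =>
      have h1 : a ⊗ₜ[RatFunc C] m = a • ((1 : A) ⊗ₜ[RatFunc C] m) := by
        rw [TensorProduct.smul_tmul', smul_eq_mul, mul_one]
      rw [h1]
      apply Submodule.smul_mem
      have hm : m ∈ Submodule.span (RatFunc C) (Set.range (algebraMap N (NCT C kb N T))) := by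
        rw [span_N]; trivial
      clear h1
      induction hm using Submodule.span_induction with
      | mem x hx =>
        obtain ⟨n, rfl⟩ := hx
        exact Submodule.subset_span ⟨n, trivial, rfl⟩
      | zero => rw [TensorProduct.tmul_zero]; exact zero_mem _
      | add x y _ _ hx hy => rw [TensorProduct.tmul_add]; exact add_mem hx hy
      | smul f x _ hx =>
        have h2 : (1 : A) ⊗ₜ[RatFunc C] (f • x) =
            (algebraMap (RatFunc C) A f) • ((1 : A) ⊗ₜ[RatFunc C] x) := by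
          rw [TensorProduct.smul_tmul', smul_eq_mul, mul_one, Algebra.algebraMap_eq_smul_one,
            TensorProduct.smul_tmul]
        rw [h2]
        exact Submodule.smul_mem _ _ hx
  rw [Submodule.mem_span_image_iff_exists_fun] at key
  obtain ⟨t, _, c, hc⟩ := key
  refine ⟨t, fun n => if h : n ∈ t then c ⟨n, h⟩ else 0, ?_⟩
  rw [← hc, ← Finset.sum_coe_sort t]
  apply Finset.sum_congr rfl
  intro n _
  beta_reduce
  rw [dif_pos n.2, TensorProduct.smul_tmul', smul_eq_mul, mul_one]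

instance : Algebra.IsIntegral A (A ⊗[RatFunc C] NCT C kb N T) := inferInstance

variable {V : ValuationSubring A} {W : ValuationSubring N} {Ω : Type x} [Field Ω]
  {Θ : (A ⊗[RatFunc C] NCT C kb N T) →+* Ω} {O : ValuationSubring Ω}

/-- nonzero values are bounded below by powers of `t` -/
theorem Wit.exists_lower (hV : InfV C V) (h : Wit V W Θ O)
    {z : A ⊗[RatFunc C] NCT C kb N T} (hz : Θ z ≠ 0) :
    ∃ m : ℕ, 1 ≤ O.valuation (resN Θ T) ^ m * O.valuation (Θ z) := by
  let _ : Algebra A Ω := (resF Θ).toAlgebra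
  have h1 : ∀ a : A, ∃ m : ℕ, O.valuation (algebraMap A Ω a) ≤ O.valuation (resN Θ T) ^ m := by
    intro a
    obtain ⟨m, hm⟩ := hV.pow a
    rw [← h.mem_V hV, map_mul, map_pow, map_inv₀, ← resN_T, ← O.valuation_le_one_iff, map_mul,
      map_pow, map_inv₀] at hm
    have h2 : O.valuation (resN Θ T) ^ m ≠ 0 :=
      pow_ne_zero _ (zero_lt_one.trans (one_lt_val O h.tN)).ne'
    refine ⟨m, ?_⟩
    rw [inv_pow, inv_mul_le_iff₀ (zero_lt_iff.mpr h2), mul_one] at hm
    exact hm
  have h2 : ∀ a : A, a ≠ 0 →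
      ∃ m : ℕ, 1 ≤ O.valuation (resN Θ T) ^ m * O.valuation (algebraMap A Ω a) := by
    intro a ha
    obtain ⟨m, hm⟩ := h1 a⁻¹
    refine ⟨m, ?_⟩
    rw [map_inv₀, map_inv₀] at hm
    have h3 : O.valuation (algebraMap A Ω a) ≠ 0 := by
      rw [Ne, map_eq_zero, map_eq_zero]; exact ha
    calc (1 : O.ValueGroup) = (O.valuation (algebraMap A Ω a))⁻¹ *
          O.valuation (algebraMap A Ω a) := (inv_mul_cancel₀ h3).symm
      _ ≤ _ := mul_le_mul' hm le_rfl
  have h3 : IsAlgebraic A (Θ z)⁻¹ := by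
    have h4 : IsIntegral A z := Algebra.IsIntegral.isIntegral z
    have h5 : IsIntegral A (Θ z) := by
      have h6 := h4.map (f := ({ Θ with commutes' := fun _ => rfl } :
        (A ⊗[RatFunc C] NCT C kb N T) →ₐ[A] Ω))
      exact h6
    exact h5.isAlgebraic.inv
  obtain ⟨m, hm⟩ := val_le_pow O h.tN h1 h2 h3
  refine ⟨m, ?_⟩
  rw [map_inv₀] at hm
  have h4 : O.valuation (Θ z) ≠ 0 := (_root_.map_ne_zero _).mpr hz
  calc (1 : O.ValueGroup) = (O.valuation (Θ z))⁻¹ * O.valuation (Θ z) := (inv_mul_cancel₀ h4).symm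
    _ ≤ _ := mul_le_mul' hm le_rfl

variable {Ω' : Type x} [Field Ω']
  {Θ' : (A ⊗[RatFunc C] NCT C kb N T) →+* Ω'} {O' : ValuationSubring Ω'}

/-- a place lies in at most one vertex -/
theorem Wit.ker_le (hV : InfV C V) (h : Wit V W Θ O) (h' : Wit V W Θ' O')
    {z : A ⊗[RatFunc C] NCT C kb N T} (hz : Θ z = 0) : Θ' z = 0 := by
  classical
  by_contra hz'
  have hk : ∀ a : kb, algebraMap kb N a ∈ W := h.kb_mem hV
  have hT : T ∉ W := h.T_notMem
  obtain ⟨s, a, rfl⟩ := exists_rep_N z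
  obtain ⟨D', hD'⟩ := h'.exists_lower hV hz'
  -- a bound for the elements of `s`
  choose m hm using fun n : N => val_le_pow_N W hk hT n
  let D := ∑ n ∈ s, m n
  have hT1 : 1 < W.valuation T := one_lt_val W hT
  have hD : ∀ n ∈ s, W.valuation n ≤ W.valuation (T ^ D) := by
    intro n hn
    rw [map_pow]
    exact (hm n).trans (pow_le_pow_right₀ hT1.le (Finset.single_le_sum (f := m)
      (fun _ _ => Nat.zero_le _) hn))
  have hO1 : 1 < O.valuation (resN Θ T) := one_lt_val O h.tN
  have hO1' : 1 < O'.valuation (resN Θ' T) := one_lt_val O' h'.tN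
  let M := D + D' + 1
  choose b hb using fun n : N => hV.approx (a n) M
  let y : NCT C kb N T := ∑ n ∈ s, algebraMap (RatFunc C) (NCT C kb N T) (b n) *
    algebraMap N (NCT C kb N T) n
  -- the difference
  have hdiff : ∑ n ∈ s, a n ⊗ₜ[RatFunc C] algebraMap N (NCT C kb N T) n =
      (1 : A) ⊗ₜ[RatFunc C] y +
      ∑ n ∈ s, (a n - algebraMap (RatFunc C) A (b n)) ⊗ₜ[RatFunc C]
        algebraMap N (NCT C kb N T) n := by
    change _ = (1 : A) ⊗ₜ[RatFunc C] (∑ n ∈ s, algebraMap (RatFunc C) (NCT C kb N T) (b n) *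
      algebraMap N (NCT C kb N T) n) + _
    rw [TensorProduct.tmul_sum, ← Finset.sum_add_distrib]
    apply Finset.sum_congr rfl
    intro n _
    have h1 : (1 : A) ⊗ₜ[RatFunc C] (algebraMap (RatFunc C) (NCT C kb N T) (b n) *
        algebraMap N (NCT C kb N T) n) =
        (algebraMap (RatFunc C) A (b n)) ⊗ₜ[RatFunc C] algebraMap N (NCT C kb N T) n := by
      rw [← Algebra.smul_def, Algebra.algebraMap_eq_smul_one (A := A) (b n),
        TensorProduct.smul_tmul]
    rw [h1, ← TensorProduct.add_tmul]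
    congr 1
    ring
  -- estimate of the remainder, for every witness
  have hest : ∀ {Ω : Type x} [Field Ω] {Θ : (A ⊗[RatFunc C] NCT C kb N T) →+* Ω}
      {O : ValuationSubring Ω}, Wit V W Θ O →
      O.valuation (Θ (∑ n ∈ s, (a n - algebraMap (RatFunc C) A (b n)) ⊗ₜ[RatFunc C]
        algebraMap N (NCT C kb N T) n)) * O.valuation (resN Θ (T ^ M)) ≤
        O.valuation (resN Θ (T ^ D)) := by
    intro Ω _ Θ O h
    rw [← map_mul, map_sum, Finset.sum_mul]
    apply Valuation.map_sum_le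
    intro n hn
    have h1 : Θ ((a n - algebraMap (RatFunc C) A (b n)) ⊗ₜ[RatFunc C]
        algebraMap N (NCT C kb N T) n) * resN Θ (T ^ M) =
        resF Θ (algebraMap (RatFunc C) A RatFunc.X ^ M *
          (a n - algebraMap (RatFunc C) A (b n))) * resN Θ n := by
      rw [map_mul, map_pow, map_pow, ← resN_T, resF_apply, resN_apply (Θ := Θ) n]
      have h2 : (a n - algebraMap (RatFunc C) A (b n)) ⊗ₜ[RatFunc C]
          algebraMap N (NCT C kb N T) n = ((a n - algebraMap (RatFunc C) A (b n)) ⊗ₜ[RatFunc C]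
          (1 : NCT C kb N T)) * ((1 : A) ⊗ₜ[RatFunc C] algebraMap N (NCT C kb N T) n) := by
        rw [Algebra.TensorProduct.tmul_mul_tmul, mul_one, one_mul]
      rw [h2, map_mul]
      ring
    rw [h1, map_mul]
    have h3 : O.valuation (resF Θ (algebraMap (RatFunc C) A RatFunc.X ^ M *
        (a n - algebraMap (RatFunc C) A (b n)))) ≤ 1 := by
      rw [O.valuation_le_one_iff, h.mem_V hV]
      exact hb n
    have h4 : O.valuation (resN Θ n) ≤ O.valuation (resN Θ (T ^ D)) :=
      (val_le_iff (ι := resN Θ) h.mem _ _).mpr (hD n hn)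
    calc _ ≤ 1 * O.valuation (resN Θ (T ^ D)) := mul_le_mul' h3 h4
      _ = _ := one_mul _
  have e1 := hest h
  have e2 := hest h'
  set r := ∑ n ∈ s, (a n - algebraMap (RatFunc C) A (b n)) ⊗ₜ[RatFunc C]
        algebraMap N (NCT C kb N T) n with hr
  rw [hdiff, map_add] at hz hD'
  -- the value of `y` in `Ω`
  have hy1 : O.valuation (resM Θ y) * O.valuation (resN Θ (T ^ M)) ≤
      O.valuation (resN Θ (T ^ D)) := by
    have h1 : resM Θ y = -Θ r :=
      calc resM Θ y = Θ ((1 : A) ⊗ₜ[RatFunc C] y) := rfl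
        _ = -Θ r := by linear_combination hz
    have h2 : O.valuation (resM Θ y) = O.valuation (Θ r) :=
      (congrArg O.valuation h1).trans (Valuation.map_neg _ _)
    exact (congrArg (· * O.valuation (resN Θ (T ^ M))) h2).trans_le e1
  have hy2 : O'.valuation (resM Θ' y) * O'.valuation (resN Θ' (T ^ M)) ≤
      O'.valuation (resN Θ' (T ^ D)) := by
    by_cases hy0 : y = 0
    · have h1 : resM Θ' y = 0 := (congrArg (resM Θ') hy0).trans (map_zero _)
      have h2 : O'.valuation (resM Θ' y) = 0 := (congrArg O'.valuation h1).trans (map_zero _)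
      refine (congrArg (· * O'.valuation (resN Θ' (T ^ M))) h2).trans_le ?_
      change 0 * _ ≤ _
      rw [zero_mul]
      exact zero_le
    obtain ⟨e, he, hlead⟩ := exists_lead_NC.{x} (C := C) W hk hT hy0
    have h1 : O.valuation (resM Θ y) = O.valuation (resN Θ e) :=
      hlead (resM Θ) O (h.memC hV) h.mem
    have h2 : O'.valuation (resM Θ' y) = O'.valuation (resN Θ' e) :=
      hlead (resM Θ') O' (h'.memC hV) h'.mem
    have h3 := (congrArg (· * O.valuation (resN Θ (T ^ M))) h1).symm.trans_le hy1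
    change O.valuation (resN Θ e) * O.valuation (resN Θ (T ^ M)) ≤ _ at h3
    rw [← map_mul, ← map_mul, val_le_iff (ι := resN Θ) h.mem] at h3
    refine (congrArg (· * O'.valuation (resN Θ' (T ^ M))) h2).trans_le ?_
    change O'.valuation (resN Θ' e) * O'.valuation (resN Θ' (T ^ M)) ≤ _
    rw [← map_mul, ← map_mul, val_le_iff (ι := resN Θ') h'.mem]
    exact h3
  -- contradiction
  have h5 : O'.valuation (Θ' ((1 : A) ⊗ₜ[RatFunc C] y) + Θ' r) *
      O'.valuation (resN Θ' (T ^ M)) ≤ O'.valuation (resN Θ' (T ^ D)) := by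
    rw [← map_mul, add_mul]
    refine Valuation.map_add_le _ ?_ ?_
    · rw [map_mul]; exact hy2
    · rw [map_mul]; exact e2
  rw [map_pow (resN Θ'), map_pow (resN Θ'), map_pow, map_pow] at h5
  set τ := O'.valuation (resN Θ' T) with hτ
  set ζ := O'.valuation (Θ' ((1 : A) ⊗ₜ[RatFunc C] y) + Θ' r) with hζ
  have h6 : τ ^ (M : ℕ) ≤ τ ^ (D + D') := by
    calc τ ^ M = 1 * τ ^ M := (one_mul _).symm
      _ ≤ (τ ^ D' * ζ) * τ ^ M := mul_le_mul' hD' le_rfl
      _ = τ ^ D' * (ζ * τ ^ M) := mul_assoc _ _ _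
      _ ≤ τ ^ D' * τ ^ D := mul_le_mul' le_rfl h5
      _ = τ ^ (D + D') := by rw [← pow_add, add_comm]
  have h7 : τ ^ (D + D') < τ ^ M := pow_lt_pow_right₀ hO1' (by omega)
  exact absurd h6 (not_le.mpr h7)

end uniq

end P025H937
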