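import Vale.Agent.P025.R2.H937.Cont

/-!
# Every place with `T ∉ W` lies in a vertex (helper937)
-/

set_option linter.unusedSectionVars false
set_option linter.style.haveILetI false

open Polynomial
open scoped TensorProduct

universe u v w x y

namespace P025H937

open P025H720 P025H544 P025H373

section exi

variable {C : Type u} {kb : Type v} {N : Type w} [Field C] [IsAlgClosed C]
  [Field kb] [IsAlgClosed kb] [Field N] [Algebra kb C] [Algebra kb N] [TrdegOne kb N]
  {T : N} [Fact (Transcendental kb T)] {A : Type y} [Field A] [Algebra (RatFunc C) A]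
  [Algebra C A] [IsScalarTower C (RatFunc C) A] {V : ValuationSubring A}

theorem inv_mem_of_notMem {L : Type*} [Field L] {W : ValuationSubring L} {x : L} (h : x ∉ W) :
    x⁻¹ ∈ W := (W.mem_or_inv_mem x).resolve_left h

theorem val_inv_lt {L : Type*} [Field L] {W : ValuationSubring L} {x : L} (h : x ∉ W) :
    W.valuation x⁻¹ < 1 := by
  rw [map_inv₀]
  exact inv_lt_one_of_one_lt₀ (one_lt_val W h)

/-- homomorphisms `C ⊗ N → Ω` which are injective on `C[T]` are injective -/
theorem injective_of_poly {Ω : Type x} [Field Ω] (χ : C ⊗[kb] N →+* Ω)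
    (h : ∀ P : C[X], χ (aeval ((1 : C) ⊗ₜ[kb] T) P) = 0 → P = 0) : Function.Injective χ := by
  rw [injective_iff_map_eq_zero]
  intro z hz
  by_contra hz0
  let a1 : Algebra C[X] (C ⊗[kb] N) := (aeval (R := C) ((1 : C) ⊗ₜ[kb] T)).toRingHom.toAlgebra
  let a2 : Algebra C[X] (NCT C kb N T) := ((algebraMap (RatFunc C) (NCT C kb N T)).comp
    (algebraMap C[X] (RatFunc C))).toAlgebra
  let a3 : Algebra (C ⊗[kb] N) (NCT C kb N T) :=
    inferInstanceAs (Algebra (C ⊗[kb] N) (NC C kb N))
  have t1 : IsScalarTower C[X] (RatFunc C) (NCT C kb N T) := IsScalarTower.of_algebraMap_eq' rfl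
  have t2 : IsScalarTower C[X] (C ⊗[kb] N) (NCT C kb N T) := by
    apply IsScalarTower.of_algebraMap_eq
    intro P
    change algebraMap (RatFunc C) (NCT C kb N T) (algebraMap C[X] (RatFunc C) P) =
      algebraMap (C ⊗[kb] N) (NC C kb N) (aeval ((1 : C) ⊗ₜ[kb] T) P)
    rw [algebraMap_T_poly]
    have h1 : (algebraMap (C ⊗[kb] N) (NC C kb N)).comp
        (aeval (R := C) ((1 : C) ⊗ₜ[kb] T)).toRingHom =
        (aeval (R := C) (algebraMap N (NC C kb N) T)).toRingHom := by
      apply Polynomial.ringHom_ext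
      · intro c
        change algebraMap (C ⊗[kb] N) (NC C kb N) (aeval ((1 : C) ⊗ₜ[kb] T) (Polynomial.C c)) =
          aeval (algebraMap N (NC C kb N) T) (Polynomial.C c)
        rw [aeval_C, aeval_C]
        rfl
      · change algebraMap (C ⊗[kb] N) (NC C kb N) (aeval ((1 : C) ⊗ₜ[kb] T) X) =
          aeval (algebraMap N (NC C kb N) T) X
        rw [aeval_X, aeval_X, algebraMap_N_NC]
    exact (RingHom.congr_fun h1 P).symm
  have h1 : IsAlgebraic (RatFunc C) (algebraMap (C ⊗[kb] N) (NCT C kb N T) z) :=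
    Algebra.IsAlgebraic.isAlgebraic _
  have h2 : IsAlgebraic C[X] (algebraMap (C ⊗[kb] N) (NCT C kb N T) z) :=
    (IsFractionRing.isAlgebraic_iff C[X] (RatFunc C) (NCT C kb N T)).mpr h1
  have hinj : Function.Injective (algebraMap (C ⊗[kb] N) (NCT C kb N T)) :=
    algebraMap_tensor_injective C kb N
  have h3 : IsAlgebraic C[X] z := (isAlgebraic_algebraMap_iff hinj).mp h2
  have h4 := Ideal.comap_ne_bot_of_algebraic_mem (I := RingHom.ker χ) hz0
    (by rw [RingHom.mem_ker]; exact hz) h3
  apply h4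
  rw [eq_bot_iff]
  intro P hP
  rw [Ideal.mem_comap, RingHom.mem_ker] at hP
  rw [Ideal.mem_bot]
  exact h P hP

/-- the homomorphism `A ⊗ NC → Ω` from compatible homomorphisms of `A` and `N` -/
theorem exists_theta_of {Ω : Type x} [Field Ω] (φA : A →+* Ω) (φN : N →+* Ω)
    (hkb : ∀ a : kb, φA (algebraMap C A (algebraMap kb C a)) = φN (algebraMap kb N a))
    (hT : φA (algebraMap (RatFunc C) A RatFunc.X) = φN T) :
    ∃ Θ : (A ⊗[RatFunc C] NCT C kb N T) →+* Ω, (∀ a, Θ (a ⊗ₜ 1) = φA a) ∧
      ∀ n, Θ (1 ⊗ₜ algebraMap N (NCT C kb N T) n) = φN n := by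
  let i1 : Algebra kb Ω := (φN.comp (algebraMap kb N)).toAlgebra
  let f1 : C →ₐ[kb] Ω := { φA.comp (algebraMap C A) with commutes' := hkb }
  let f2 : N →ₐ[kb] Ω := { φN with commutes' := fun _ => rfl }
  let χ : C ⊗[kb] N →+* Ω := (Algebra.TensorProduct.productMap f1 f2).toRingHom
  have hχ : ∀ (c : C) (n : N), χ (c ⊗ₜ n) = φA (algebraMap C A c) * φN n := fun c n =>
    Algebra.TensorProduct.productMap_apply_tmul _ _ _ _
  have hpoly : ∀ P : C[X], χ (aeval ((1 : C) ⊗ₜ[kb] T) P) =
      φA (algebraMap (RatFunc C) A (algebraMap C[X] (RatFunc C) P)) := by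
    intro P
    have h1 : χ.comp (aeval (R := C) ((1 : C) ⊗ₜ[kb] T)).toRingHom =
        φA.comp ((algebraMap (RatFunc C) A).comp (algebraMap C[X] (RatFunc C))) := by
      apply Polynomial.ringHom_ext
      · intro c
        change χ (aeval ((1 : C) ⊗ₜ[kb] T) (Polynomial.C c)) =
          φA (algebraMap (RatFunc C) A (algebraMap C[X] (RatFunc C) (Polynomial.C c)))
        rw [aeval_C]
        have h2 : algebraMap C (C ⊗[kb] N) c = c ⊗ₜ 1 := rfl
        rw [h2, hχ, map_one, mul_one, RatFunc.algebraMap_C,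
          IsScalarTower.algebraMap_apply C (RatFunc C) A]
        rfl
      · change χ (aeval ((1 : C) ⊗ₜ[kb] T) X) =
          φA (algebraMap (RatFunc C) A (algebraMap C[X] (RatFunc C) X))
        rw [aeval_X, hχ, map_one, map_one, one_mul, RatFunc.algebraMap_X, hT]
    exact RingHom.congr_fun h1 P
  have hinj : Function.Injective χ := by
    apply injective_of_poly (T := T)
    intro P hP
    rw [hpoly, map_eq_zero, map_eq_zero] at hP
    exact (map_eq_zero_iff _ (RatFunc.algebraMap_injective C)).mp hP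
  let ψ : NC C kb N →+* Ω := IsFractionRing.lift (A := C ⊗[kb] N) (K := NC C kb N) hinj
  have hψ : ∀ z : C ⊗[kb] N, ψ (algebraMap (C ⊗[kb] N) (NC C kb N) z) = χ z := fun z =>
    IsFractionRing.lift_algebraMap hinj z
  have hψp : ∀ P : C[X], ψ (algebraMap (RatFunc C) (NCT C kb N T) (algebraMap C[X] (RatFunc C) P)) =
      φA (algebraMap (RatFunc C) A (algebraMap C[X] (RatFunc C) P)) := by
    intro P
    rw [algebraMap_T_poly, ← hpoly, ← hψ]
    congr 1
    have h1 : (algebraMap (C ⊗[kb] N) (NC C kb N)).comp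
        (aeval (R := C) ((1 : C) ⊗ₜ[kb] T)).toRingHom =
        (aeval (R := C) (algebraMap N (NC C kb N) T)).toRingHom := by
      apply Polynomial.ringHom_ext
      · intro c
        change algebraMap (C ⊗[kb] N) (NC C kb N) (aeval ((1 : C) ⊗ₜ[kb] T) (Polynomial.C c)) =
          aeval (algebraMap N (NC C kb N) T) (Polynomial.C c)
        rw [aeval_C, aeval_C]
        rfl
      · change algebraMap (C ⊗[kb] N) (NC C kb N) (aeval ((1 : C) ⊗ₜ[kb] T) X) =
          aeval (algebraMap N (NC C kb N) T) X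
        rw [aeval_X, aeval_X, algebraMap_N_NC]
    exact (RingHom.congr_fun h1 P).symm
  let i2 : Algebra (RatFunc C) Ω := (φA.comp (algebraMap (RatFunc C) A)).toAlgebra
  let g1 : A →ₐ[RatFunc C] Ω := { φA with commutes' := fun _ => rfl }
  let g2 : NCT C kb N T →ₐ[RatFunc C] Ω := { (ψ : NCT C kb N T →+* Ω) with
    commutes' := by
      intro f
      change ψ (algebraMap (RatFunc C) (NCT C kb N T) f) = φA (algebraMap (RatFunc C) A f)
      conv_lhs => rw [← f.num_div_denom]
      conv_rhs => rw [← f.num_div_denom]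
      rw [map_div₀ (algebraMap (RatFunc C) (NCT C kb N T)), map_div₀ (algebraMap (RatFunc C) A),
        map_div₀ φA, ← hψp, ← hψp]
      exact map_div₀ ψ _ _ }
  refine ⟨(Algebra.TensorProduct.productMap g1 g2).toRingHom, ?_, ?_⟩
  · intro a
    change Algebra.TensorProduct.productMap g1 g2 (a ⊗ₜ 1) = φA a
    rw [Algebra.TensorProduct.productMap_apply_tmul, map_one, mul_one]
    rfl
  · intro n
    change Algebra.TensorProduct.productMap g1 g2 (1 ⊗ₜ algebraMap N (NCT C kb N T) n) = φN n
    rw [Algebra.TensorProduct.productMap_apply_tmul, map_one, one_mul]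
    change ψ (algebraMap N (NC C kb N) n) = φN n
    rw [algebraMap_N_NC, hψ, hχ, map_one, map_one, one_mul]

/-- every place `W` with `T ∉ W` lies in the kernel of some homomorphism to a field -/
theorem exists_wit_of_place (hV : InfV C V) (W : ValuationSubring N)
    (hk : ∀ a : kb, algebraMap kb N a ∈ W) (hT : T ∉ W) :
    ∃ (Ω : Type (max y w)) (_ : Field Ω) (Θ : (A ⊗[RatFunc C] NCT C kb N T) →+* Ω)
      (O : ValuationSubring Ω), Wit V W Θ O := by
  obtain ⟨rV, hrV, hrV0⟩ := exists_resHom (K := C) V hV.constA (fun x hx => hV.exists_res hx)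
  obtain ⟨rW, hrW, hrW0⟩ := exists_resHom (K := kb) W hk (fun x hx => exists_res W hk hT hx)
  let τ : V := ⟨_, inv_mem_of_notMem hV.X⟩
  let σ : W := ⟨_, inv_mem_of_notMem hT⟩
  have hτ : rV τ = 0 := (hrV0 τ).mpr (val_inv_lt hV.X)
  have hσ : rW σ = 0 := (hrW0 σ).mpr (val_inv_lt hT)
  let cV : C →+* V := (algebraMap C A).codRestrict V.toSubring hV.constA
  let cW : kb →+* W := (algebraMap kb N).codRestrict W.toSubring hk
  let i1 : Algebra kb[X] V := (eval₂RingHom (cV.comp (algebraMap kb C)) τ).toAlgebra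
  let i2 : Algebra kb[X] W := (eval₂RingHom cW σ).toAlgebra
  let i3 : Algebra kb[X] C := (eval₂RingHom (algebraMap kb C) 0).toAlgebra
  have e1 : ∀ p : kb[X], algebraMap kb[X] V p = eval₂ (cV.comp (algebraMap kb C)) τ p :=
    fun _ => rfl
  have e2 : ∀ p : kb[X], algebraMap kb[X] W p = eval₂ cW σ p := fun _ => rfl
  have e3 : ∀ p : kb[X], algebraMap kb[X] C p = eval₂ (algebraMap kb C) 0 p := fun _ => rfl
  -- injectivity
  have hA : Function.Injective (algebraMap kb[X] V) := by
    rw [injective_iff_map_eq_zero]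
    intro p hp
    have h1 : aeval (algebraMap (RatFunc C) A RatFunc.X)⁻¹ (p.map (algebraMap kb C)) = 0 := by
      have h2 : ((algebraMap kb[X] V p : V) : A) = 0 := by rw [hp]; rfl
      rw [e1] at h2
      have h3 : ((eval₂ (cV.comp (algebraMap kb C)) τ p : V) : A) =
          V.subtype (eval₂ (cV.comp (algebraMap kb C)) τ p) := rfl
      rw [h3, Polynomial.hom_eval₂] at h2
      rw [aeval_def, eval₂_map]
      exact h2
    have h2 : Transcendental C (algebraMap (RatFunc C) A RatFunc.X) :=
      transcendental_of_notMem (kb := C) V hV.constA hV.X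
    have h3 : Transcendental C (algebraMap (RatFunc C) A RatFunc.X)⁻¹ := by
      intro h
      apply h2
      have h4 := h.inv
      rwa [inv_inv] at h4
    rw [transcendental_iff] at h3
    have h5 := h3 _ h1
    exact (Polynomial.map_eq_zero_iff (algebraMap kb C).injective).mp h5
  have hW : Function.Injective (algebraMap kb[X] W) := by
    rw [injective_iff_map_eq_zero]
    intro p hp
    have h1 : aeval T⁻¹ p = 0 := by
      have h2 : ((algebraMap kb[X] W p : W) : N) = 0 := by rw [hp]; rfl
      rw [e2] at h2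
      have h3 : ((eval₂ cW σ p : W) : N) = W.subtype (eval₂ cW σ p) := rfl
      rw [h3, Polynomial.hom_eval₂] at h2
      exact h2
    have h3 : Transcendental kb T⁻¹ := by
      intro h
      apply transcendental_of_notMem (kb := kb) W hk hT
      have h4 := h.inv
      rwa [inv_inv] at h4
    rw [transcendental_iff] at h3
    exact h3 _ h1
  let gV : V →ₐ[kb[X]] C := { rV with
    commutes' := by
      intro p
      change rV (algebraMap kb[X] V p) = algebraMap kb[X] C p
      rw [e1, e3, Polynomial.hom_eval₂, hτ]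
      congr 1
      ext a
      exact hrV _ }
  let gW : W →ₐ[kb[X]] C := { (algebraMap kb C).comp rW with
    commutes' := by
      intro p
      change (algebraMap kb C).comp rW (algebraMap kb[X] W p) = algebraMap kb[X] C p
      rw [e2, e3, Polynomial.hom_eval₂]
      have h1 : (algebraMap kb C).comp rW σ = 0 := by
        rw [RingHom.comp_apply, hσ, map_zero]
      rw [h1]
      congr 1
      ext a
      exact congrArg (algebraMap kb C) (hrW a) }
  obtain ⟨Ω, iΩ, fA, fW, O, h1, h2, h3, h4, h5, h6, h7⟩ :=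
    exists_amalgam kb[X] V W C hA hW gV gW
  let φA : A →+* Ω := IsFractionRing.lift (A := V) (K := A) h1
  let φN : N →+* Ω := IsFractionRing.lift (A := W) (K := N) h2
  have hφA : ∀ a : V, φA a = fA a := fun a => IsFractionRing.lift_algebraMap h1 a
  have hφN : ∀ a : W, φN a = fW a := fun a => IsFractionRing.lift_algebraMap h2 a
  have hkb : ∀ a : kb, φA (algebraMap C A (algebraMap kb C a)) = φN (algebraMap kb N a) := by
    intro a
    have h8 := h3 (Polynomial.C a)
    rw [e1, e2, eval₂_C, eval₂_C] at h8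
    have h9 := hφA (cV (algebraMap kb C a))
    have h10 := hφN (cW a)
    exact h9.trans (h8.trans h10.symm)
  have hTT : φA (algebraMap (RatFunc C) A RatFunc.X) = φN T := by
    have h8 := h3 X
    rw [e1, e2, eval₂_X, eval₂_X, ← hφA, ← hφN] at h8
    have h9 : φA ((τ : V) : A) = (φA (algebraMap (RatFunc C) A RatFunc.X))⁻¹ := map_inv₀ φA _
    have h10 : φN ((σ : W) : N) = (φN T)⁻¹ := map_inv₀ φN _
    rw [h9, h10] at h8
    exact inv_injective h8
  obtain ⟨Θ, hΘ1, hΘ2⟩ := exists_theta_of (T := T) φA φN hkb hTT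
  refine ⟨Ω, iΩ, Θ, O, ?_, ?_, ?_⟩
  · intro a ha
    rw [hΘ1]
    have := h4 ⟨a, ha⟩
    rwa [← hφA] at this
  · rw [hΘ1]
    intro h8
    have h9 := h6 τ hτ
    rw [← hφA] at h9
    have h10 : φA ((τ : V) : A) = (φA (algebraMap (RatFunc C) A RatFunc.X))⁻¹ := map_inv₀ φA _
    rw [h10, map_inv₀] at h9
    have h11 : O.valuation (φA (algebraMap (RatFunc C) A RatFunc.X)) ≠ 0 := by
      rw [Ne, map_eq_zero, map_eq_zero]
      intro h0
      apply hV.X
      rw [h0]
      exact zero_mem _
    rw [inv_lt_one₀ (zero_lt_iff.mpr h11)] at h9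
    exact absurd ((O.valuation_le_one_iff _).mpr h8) (not_le.mpr h9)
  · intro n
    rw [hΘ2]
    constructor
    · intro hn
      by_contra hn'
      have h8 : rW ⟨_, inv_mem_of_notMem hn'⟩ = 0 := (hrW0 _).mpr (val_inv_lt hn')
      have h9 := h7 ⟨_, inv_mem_of_notMem hn'⟩ (by
        change algebraMap kb C (rW _) = 0
        rw [h8, map_zero])
      rw [← hφN] at h9
      have h10 : φN n⁻¹ = (φN n)⁻¹ := map_inv₀ φN _
      change O.valuation (φN n⁻¹) < 1 at h9
      rw [h10, map_inv₀] at h9
      have h11 : O.valuation (φN n) ≠ 0 := by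
        rw [Ne, map_eq_zero, map_eq_zero]
        rintro rfl
        exact hn' (zero_mem _)
      rw [inv_lt_one₀ (zero_lt_iff.mpr h11)] at h9
      exact absurd ((O.valuation_le_one_iff _).mpr hn) (not_le.mpr h9)
    · intro hn
      have := h5 ⟨n, hn⟩
      rwa [← hφN] at this

end exi

end P025H937
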