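import Vale.Agent.P025.R2.H937.Sep

/-!
# P025, A side, item (2e) (helper937): approximate idempotents

The places above `T = infinity` of a finitely generated extension of `kb` of transcendence degree
one are separated by finitely many elements `e` with `e ^ 2 - e = T⁻¹ * b`, `b` integral over
`kb[T⁻¹]`.
-/

set_option linter.unusedSectionVars false

namespace P025H937

section abs

theorem exists_idem_ideal {B : Type*} [CommRing B] [IsDedekindDomain B] {I P P' : Ideal B}
    (hI : I ≠ ⊥) [hP : P.IsPrime] [hP' : P'.IsPrime] (h : I ≤ P) (h' : I ≤ P') (hne : P ≠ P') :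
    ∃ e : B, e ∈ P ∧ 1 - e ∈ P' ∧ e ^ 2 - e ∈ I := by
  have hPb : P ≠ ⊥ := fun h0 => hI (le_bot_iff.1 (h0 ▸ h))
  have hmax : P.IsMaximal := hP.isMaximal hPb
  have hfin : FiniteMultiplicity P I := by
    refine FiniteMultiplicity.of_not_isUnit ?_ hI
    rw [Ideal.isUnit_iff]
    exact hP.ne_top
  obtain ⟨J, hJ, hPJ⟩ := hfin.exists_eq_pow_mul_and_not_dvd
  set k := multiplicity P I with hk
  have hk0 : k ≠ 0 := by
    intro h0
    rw [h0, pow_zero, one_mul] at hJ
    exact hPJ (hJ ▸ (Ideal.dvd_iff_le.2 h))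
  have hJP : ¬ J ≤ P := fun h => hPJ (Ideal.dvd_iff_le.2 h)
  have hcop : IsCoprime P J := by
    rw [Ideal.isCoprime_iff_sup_eq]
    by_contra h0
    have h1 : P = P ⊔ J := hmax.eq_of_le h0 le_sup_left
    exact hJP (h1 ▸ le_sup_right)
  have hcop' : IsCoprime (P ^ k) J := hcop.pow_left
  rw [Ideal.isCoprime_iff_exists] at hcop'
  obtain ⟨e, he, y, hy, hey⟩ := hcop'
  have hy1 : 1 - e = y := by rw [← hey]; ring
  refine ⟨e, Ideal.pow_le_self hk0 he, ?_, ?_⟩
  · rw [hy1]
    have h1 : P ^ k * J ≤ P' := hJ ▸ h'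
    rcases hP'.mul_le.1 h1 with h2 | h2
    · exfalso
      have h3 : P ≤ P' := hP'.pow_le_iff hk0 |>.1 h2
      exact hne (hmax.eq_of_le hP'.ne_top h3)
    · exact h2 hy
  · have h1 : e ^ 2 - e = - (e * y) := by rw [← hy1]; ring
    rw [h1, hJ]
    exact neg_mem (Ideal.mul_mem_mul he hy)

variable {A L : Type*} [CommRing A] [IsDedekindDomain A] [Field L] [Algebra A L]

theorem exists_idem_aux (K : Type*) [Field K] [Algebra A K]
    [IsFractionRing A K] [Algebra K L] [IsScalarTower A K L]
    [FiniteDimensional K L] [Algebra.IsSeparable K L] (s : A) (hs : (Ideal.span {s}).IsMaximal)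
    (hs0 : s ≠ 0) :
    ∃ E : Finset (L × L), (∀ x ∈ E, x.1 ^ 2 - x.1 = algebraMap A L s * x.2 ∧ IsIntegral A x.2) ∧
      ∀ V V' : ValuationSubring L, (∀ a : A, algebraMap A L a ∈ V) →
      (∀ a : A, algebraMap A L a ∈ V') → V.valuation (algebraMap A L s) < 1 →
      V'.valuation (algebraMap A L s) < 1 →
      (∀ x ∈ E, ¬ (V.valuation x.1 < 1 ∧ V'.valuation (1 - x.1) < 1)) → V ≤ V' := by
  classical
  have : IsDedekindDomain (integralClosure A L) :=
    IsIntegralClosure.isDedekindDomain A K L (integralClosure A L)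
  have : IsFractionRing (integralClosure A L) L :=
    IsIntegralClosure.isFractionRing_of_finite_extension A K L (integralClosure A L)
  have hinjL : Function.Injective (algebraMap A L) := by
    rw [IsScalarTower.algebraMap_eq A K L]
    exact (algebraMap K L).injective.comp (IsFractionRing.injective A K)
  have hinjB : Function.Injective (algebraMap A (integralClosure A L)) := by
    intro a b hab
    apply hinjL
    rw [IsScalarTower.algebraMap_apply A (integralClosure A L) L, hab,
      ← IsScalarTower.algebraMap_apply A (integralClosure A L) L]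
  have : Module.IsTorsionFree A (integralClosure A L) :=
    Module.isTorsionFree_iff_algebraMap_injective.2 hinjB
  have hp0 : Ideal.span {s} ≠ ⊥ := by
    rwa [Ne, Ideal.span_singleton_eq_bot]
  have hfin : ((Ideal.span {s}).primesOver (integralClosure A L)).Finite :=
    IsDedekindDomain.primesOver_finite (Ideal.span {s}) (integralClosure A L)
  set σ : integralClosure A L := algebraMap A (integralClosure A L) s with hσ
  have hI : Ideal.span {σ} ≠ ⊥ := by
    rw [Ne, Ideal.span_singleton_eq_bot]
    intro h0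
    exact hs0 (hinjB (by rw [← hσ, h0, map_zero]))
  have hch : ∀ P P' : Ideal (integralClosure A L), P.IsPrime → P'.IsPrime → Ideal.span {σ} ≤ P →
      Ideal.span {σ} ≤ P' → P ≠ P' →
      ∃ x : integralClosure A L × integralClosure A L, x.1 ∈ P ∧ 1 - x.1 ∈ P' ∧
        x.1 ^ 2 - x.1 = σ * x.2 := by
    intro P P' hP hP' h h' hne
    obtain ⟨e, h1, h2, h3⟩ := exists_idem_ideal hI h h' hne
    rw [Ideal.mem_span_singleton] at h3
    obtain ⟨b, hb⟩ := h3
    exact ⟨(e, b), h1, h2, hb⟩
  choose! f hf using hch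
  refine ⟨((hfin.toFinset ×ˢ hfin.toFinset).filter
    (fun x => (f x.1 x.2).1 ^ 2 - (f x.1 x.2).1 = σ * (f x.1 x.2).2)).image
    (fun x => (((f x.1 x.2).1 : L), ((f x.1 x.2).2 : L))), ?_, ?_⟩
  · intro x hx
    rw [Finset.mem_image] at hx
    obtain ⟨y, hy, rfl⟩ := hx
    rw [Finset.mem_filter] at hy
    refine ⟨?_, (f y.1 y.2).2.2⟩
    have h1 := congrArg (fun z : integralClosure A L => (z : L)) hy.2
    exact h1
  intro V V' hV hV' hs1 hs1' hE
  have hsp : ∀ (V : ValuationSubring L), (∀ a : A, algebraMap A L a ∈ V) →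
      V.valuation (algebraMap A L s) < 1 → ∀ a ∈ Ideal.span {s}, V.valuation (algebraMap A L a) < 1 := by
    intro V hV hs1 a ha
    rw [Ideal.mem_span_singleton] at ha
    obtain ⟨b, rfl⟩ := ha
    rw [map_mul, map_mul]
    exact mul_lt_one_of_lt_of_le hs1 ((V.valuation_le_one_iff _).2 (hV b))
  have h1 := centre_liesOver (Ideal.span {s}) V hV (hsp V hV hs1)
  have h2 := centre_liesOver (Ideal.span {s}) V' hV' (hsp V' hV' hs1')
  have h3 : centre V hV = centre V' hV' := by
    by_contra hcon
    have h4 : Ideal.span {σ} ≤ centre V hV := by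
      rw [Ideal.span_singleton_le_iff_mem]
      exact hs1
    have h4' : Ideal.span {σ} ≤ centre V' hV' := by
      rw [Ideal.span_singleton_le_iff_mem]
      exact hs1'
    obtain ⟨h5, h6, h7⟩ := hf _ _ (centre_prime V hV) (centre_prime V' hV') h4 h4' hcon
    refine hE (((f (centre V hV) (centre V' hV')).1 : L), ((f (centre V hV) (centre V' hV')).2 : L))
      ?_ ⟨h5, h6⟩
    rw [Finset.mem_image]
    refine ⟨(centre V hV, centre V' hV'), ?_, rfl⟩
    rw [Finset.mem_filter, Finset.mem_product, Set.Finite.mem_toFinset, Set.Finite.mem_toFinset]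
    exact ⟨⟨⟨inferInstance, h1⟩, ⟨inferInstance, h2⟩⟩, h7⟩
  have hbot : centre V hV ≠ ⊥ := by
    intro h0
    apply hp0
    rw [h1.over, h0, Ideal.under_def, Ideal.comap_bot_of_injective]
    exact hinjB
  exact le_of_centre_le hbot h3.ge

end abs

section app

open IntermediateField

open scoped IntermediateField.algebraAdjoinAdjoin

universe v w

variable {kb : Type v} {N : Type w} [Field kb] [CharZero kb] [Field N] [Algebra kb N]
  [P025H720.TrdegOne kb N]

theorem val_inv_ltN {W : ValuationSubring N} {T : N} (h : T ∉ W) : W.valuation T⁻¹ < 1 := by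
  have h0 : T ≠ 0 := by rintro rfl; exact h (zero_mem _)
  rw [val_lt_one_iff_inv W (inv_ne_zero h0), inv_inv]
  exact h

theorem adjoin_le_val {W : ValuationSubring N} (hk : ∀ c : kb, algebraMap kb N c ∈ W) {s : N}
    (hs : s ∈ W) (a : Algebra.adjoin kb {s}) : (a : N) ∈ W := by
  obtain ⟨a, ha⟩ := a
  change a ∈ W
  induction ha using Algebra.adjoin_induction with
  | mem x hx =>
    rw [Set.mem_singleton_iff] at hx
    rw [hx]
    exact hs
  | algebraMap r => exact hk r
  | add x y _ _ hx hy => exact add_mem hx hy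
  | mul x y _ _ hx hy => exact mul_mem hx hy

/-- **Separation of the places above infinity by approximate idempotents** -/
theorem exists_idem (T : N) (hT : Transcendental kb T) (F : Finset N) :
    ∃ E : Finset (N × N), (∀ x ∈ E, x.1 ^ 2 - x.1 = T⁻¹ * x.2 ∧
        IsIntegral (Algebra.adjoin kb {T⁻¹}) x.2) ∧
      ∀ W W' : ValuationSubring N, (∀ c : kb, algebraMap kb N c ∈ W) →
      (∀ c : kb, algebraMap kb N c ∈ W') → T ∉ W → T ∉ W' →
      (∀ x ∈ E, ¬ (W.valuation x.1 < 1 ∧ W'.valuation (1 - x.1) < 1)) →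
      ∀ x ∈ IntermediateField.adjoin kb (F : Set N), x ∈ W → x ∈ W' := by
  classical
  have hT0 : T ≠ 0 := by
    rintro rfl
    exact hT isAlgebraic_zero
  set s : N := T⁻¹ with hs
  have hst : Transcendental kb s := fun h => hT (by
    have := h.inv
    rwa [hs, inv_inv] at this)
  have hs0 : s ≠ 0 := inv_ne_zero hT0
  let A := Algebra.adjoin kb {s}
  let K := IntermediateField.adjoin kb {s}
  have hpid : IsPrincipalIdealRing A := adjoin_pid s
  have hded : IsDedekindDomain A := inferInstance
  let L : IntermediateField K N := IntermediateField.adjoin K (F : Set N)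
  have halg : ∀ x : N, IsAlgebraic K x := by
    intro x
    have h1 : IsAlgebraic A x := P025H720.TrdegOne.alg s x hst
    exact h1.extendScalars (IsFractionRing.injective A K)
  have : Finite ((F : Set N)) := inferInstance
  have hfin : FiniteDimensional K L :=
    IntermediateField.finiteDimensional_adjoin (fun x _ => (halg x).isIntegral)
  have : CharZero K := inferInstance
  have : IsScalarTower A K L := by
    refine IsScalarTower.of_algebraMap_eq fun a => ?_
    rfl
  have hmax : (Ideal.span {gen kb s} : Ideal A).IsMaximal := gen_maximal hst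
  have hne : gen kb s ≠ 0 := by
    intro h0
    exact hs0 (congrArg (fun r : A => (r : N)) h0)
  obtain ⟨E, hE, hU⟩ := exists_idem_aux (L := L) K (gen kb s : A) hmax hne
  refine ⟨E.image (fun u : L × L => ((u.1 : N), (u.2 : N))), ?_, ?_⟩
  · intro x hx
    rw [Finset.mem_image] at hx
    obtain ⟨y, hy, rfl⟩ := hx
    obtain ⟨h1, h2⟩ := hE y hy
    refine ⟨congrArg (fun z : L => (z : N)) h1, ?_⟩
    have : IsScalarTower A L N := IsScalarTower.of_algebraMap_eq fun a => rfl
    have h3 : IsIntegral A ((algebraMap L N) y.2) := h2.algebraMap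
    exact h3
  intro W W' hk hk' hTW hTW' hUW x hx hxW
  have hcom : ∀ (V : ValuationSubring N) (x : L), (V.comap (algebraMap L N)).valuation x < 1 ↔
      V.valuation (x : N) < 1 := by
    intro V x
    by_cases hx0 : x = 0
    · subst hx0
      simp
    · have hx0' : (x : N) ≠ 0 := fun h => hx0 (Subtype.ext h)
      rw [val_lt_one_iff_inv _ hx0, val_lt_one_iff_inv _ hx0', ValuationSubring.mem_comap, map_inv₀]
      rfl
  have hxL : x ∈ L := by
    have h1 : IntermediateField.adjoin kb (F : Set N) ≤ L.restrictScalars kb := by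
      rw [IntermediateField.adjoin_le_iff]
      intro y hy
      exact IntermediateField.subset_adjoin K (F : Set N) hy
    exact h1 hx
  have hsW : ∀ V : ValuationSubring N, T ∉ V → s ∈ V := fun V hV =>
    (V.valuation_le_one_iff _).1 (val_inv_ltN hV).le
  have hfinal := hU (W.comap (algebraMap L N)) (W'.comap (algebraMap L N))
    (fun a => adjoin_le_val hk (hsW W hTW) a) (fun a => adjoin_le_val hk' (hsW W' hTW') a)
    ((hcom _ _).2 (val_inv_ltN hTW)) ((hcom _ _).2 (val_inv_ltN hTW'))
    (fun u hu hu' => hUW _ (Finset.mem_image_of_mem _ hu)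
      ⟨(hcom _ _).1 hu'.1, (hcom W' (1 - u.1)).1 hu'.2⟩)
  exact hfinal (x := (⟨x, hxL⟩ : L)) hxW

end app

end P025H937
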