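import Vale.Agent.P025.R2.H937.Ball
import Vale.Agent.P025.R2.H937.Idem
import Vale.Agent.P025.R2.H937.Vert

/-!
# P025, A side, item (2e) (helper937): the Hensel half
-/

set_option linter.unusedSectionVars false

open Polynomial

universe u v w x

namespace P025H937

open P025H373

section hens

variable {C : Type u} [NontriviallyNormedField C] [IsUltrametricDist C] [CompleteSpace C]
  [IsAlgClosed C] {K : Type v} [Field K] {φ : A2 C →+* K}

theorem IntB.mem {O : ValuationSubring K} (hO : ∀ a, φ a ∈ O) {z : K} (hz : IntB φ z) : z ∈ O := by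
  let _ : Algebra (B0 C) K := (φ.comp (B0 C).subtype).toAlgebra
  exact mem_of_integral' (A := B0 C) O (fun a => hO a) hz

theorem IntB.mul {y z : K} (hy : IntB φ y) (hz : IntB φ z) : IntB φ (y * z) := by
  let _ : Algebra (B0 C) K := (φ.comp (B0 C).subtype).toAlgebra
  exact IsIntegral.mul (R := B0 C) hy hz

theorem intB_coe {a : A2 C} (ha : ‖(a : F0 C)‖ ≤ 1) : IntB φ (φ a) := by
  let _ : Algebra (B0 C) K := (φ.comp (B0 C).subtype).toAlgebra
  exact isIntegral_algebraMap (R := B0 C) (A := K) (x := ⟨a, ha⟩)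

theorem val_unit {O : ValuationSubring K} (hO : ∀ a, φ a ∈ O) {a : A2 C} (ha : IsUnit a) :
    O.valuation (φ a) = 1 := by
  obtain ⟨b, hb⟩ := ha.exists_right_inv
  have h1 : O.valuation (φ a) ≤ 1 := (O.valuation_le_one_iff _).2 (hO a)
  have h2 : O.valuation (φ b) ≤ 1 := (O.valuation_le_one_iff _).2 (hO b)
  refine le_antisymm h1 ?_
  have h3 : O.valuation (φ a) * O.valuation (φ b) = 1 := by
    rw [← map_mul, ← map_mul, hb, map_one, map_one]
  rw [← h3]
  calc O.valuation (φ a) * O.valuation (φ b) ≤ O.valuation (φ a) * 1 := mul_le_mul' le_rfl h2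
    _ = _ := mul_one _

/-- `1 - c η` is a unit at all places above infinity -/
theorem not_val_lt {O : ValuationSubring K} (hO : ∀ a, φ a ∈ O) {c : C} (h1 : ‖c‖ < 1) {η : K}
    (hη : IntB φ η) : ¬ O.valuation (1 - φ (algebraMap C (A2 C) c) * η) < 1 := by
  intro hlt
  have hηO : η ∈ O := hη.mem hO
  obtain ⟨P, hP, hPη⟩ := hη
  set ψ : B0 C →+* K := φ.comp (B0 C).subtype with hψ
  set s : B0 C := cB c h1.le with hs
  have hψs : ψ s = φ (algebraMap C (A2 C) c) := rfl
  set ξ : K := ψ s * η with hξ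
  have hg : eval₂ ψ ξ (scaleRoots P s) = 0 := scaleRoots_eval₂_eq_zero ψ hPη
  -- reduction modulo `s`
  have hd : Polynomial.C s ∣ scaleRoots P s - X ^ P.natDegree := by
    rw [C_dvd_iff_dvd_coeff]
    intro i
    rw [coeff_sub, coeff_scaleRoots, coeff_X_pow]
    by_cases hi : i = P.natDegree
    · rw [if_pos hi, hi, Nat.sub_self, pow_zero, mul_one, hP.coeff_natDegree, sub_self]
      exact dvd_zero _
    · rw [if_neg hi, sub_zero]
      rcases lt_or_gt_of_ne hi with h2 | h2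
      · exact Dvd.dvd.mul_left (dvd_pow_self _ (by omega)) _
      · rw [coeff_eq_zero_of_natDegree_lt h2, zero_mul]
        exact dvd_zero _
  obtain ⟨h, hh⟩ := hd
  have hev : (scaleRoots P s).eval 1 = 1 + s * h.eval 1 := by
    have h2 := congrArg (eval 1) hh
    rw [eval_sub, eval_pow, eval_X, one_pow, eval_mul, eval_C] at h2
    linear_combination h2
  obtain ⟨q, hq⟩ := X_sub_C_dvd_sub_C_eval (a := (1 : B0 C)) (p := scaleRoots P s)
  have hq2 := congrArg (eval₂ ψ ξ) hq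
  rw [eval₂_sub, eval₂_C, eval₂_mul, eval₂_sub, eval₂_X, eval₂_C, hg, map_one, zero_sub] at hq2
  have hξO : ξ ∈ O := mul_mem (hO _) hηO
  have hqO : eval₂ ψ ξ q ∈ O := by
    rw [eval₂_eq_sum_range]
    exact sum_mem fun i _ => mul_mem (hO _) (pow_mem hξO i)
  have h3 : O.valuation (-ψ ((scaleRoots P s).eval 1)) < 1 := by
    rw [hq2, map_mul]
    have h4 : O.valuation (ξ - 1) < 1 := by
      rw [← Valuation.map_neg, neg_sub]
      exact hlt
    exact mul_lt_one_of_lt_of_le h4 ((O.valuation_le_one_iff _).2 hqO)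
  rw [Valuation.map_neg, hev] at h3
  have h5 : ψ (1 + s * h.eval 1) = φ (1 + algebraMap C (A2 C) c * (h.eval 1 : B0 C)) := rfl
  rw [h5, val_unit hO (isUnit_one_add h1 _ (h.eval 1).2)] at h3
  exact lt_irrefl _ h3

/-- **The key**: an approximate idempotent takes the same value at all places above infinity -/
theorem hens_key {O O' : ValuationSubring K} (hO : ∀ a, φ a ∈ O) (hO' : ∀ a, φ a ∈ O') {c : C}
    (h0 : c ≠ 0) (h1 : ‖c‖ < 1) {e z : K} (hz : IntB φ z)
    (he : e ^ 2 - e = φ (algebraMap C (A2 C) c) * z) :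
    ¬ (O.valuation e < 1 ∧ O'.valuation (1 - e) < 1) := by
  obtain ⟨η, hη, hq⟩ := (piComplete_B0 h0 h1).exists_quad_integral (φ.comp (B0 C).subtype) hz
  have h2 : (φ.comp (B0 C).subtype) (cB c h1.le) = φ (algebraMap C (A2 C) c) := rfl
  rw [h2, ← he] at hq
  set ξ : K := φ (algebraMap C (A2 C) c) * η with hξ
  have h3 : (e - ξ) * (e + ξ - 1) = 0 := by linear_combination -hq
  rintro ⟨h4, h5⟩
  rcases mul_eq_zero.1 h3 with h6 | h6
  · have h7 : e = ξ := by linear_combination h6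
    rw [h7] at h5
    exact not_val_lt hO' h1 hη h5
  · have h7 : e = 1 - ξ := by linear_combination h6
    rw [h7] at h4
    exact not_val_lt hO h1 hη h4

end hens

section scale

variable {C : Type u} [NontriviallyNormedField C] [IsUltrametricDist C] [CompleteSpace C]
  [IsAlgClosed C] {kb : Type v} {N : Type w} [Field kb] [Field N] [Algebra kb C] [Algebra kb N]

/-- the elements of `kb[s]` are bounded, uniformly in the disc -/
theorem exists_bound (s : N) (a : N) (ha : a ∈ Algebra.adjoin kb {s}) :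
    ∃ M : ℝ, ∀ x : A2 C, ‖(x : F0 C)‖ ≤ 1 → ∃ a' : A2 C, ‖(a' : F0 C)‖ ≤ M ∧
      ∀ (K : Type x) [Field K] (φ : A2 C →+* K) (ι : N →+* K),
        (∀ r : kb, ι (algebraMap kb N r) = φ (algebraMap C (A2 C) (algebraMap kb C r))) →
        ι s = φ x → ι a = φ a' := by
  induction ha using Algebra.adjoin_induction with
  | mem y hy =>
    rw [Set.mem_singleton_iff] at hy
    subst hy
    exact ⟨1, fun x hx => ⟨x, hx, fun K _ φ ι _ h => h⟩⟩
  | algebraMap r =>
    refine ⟨‖algebraMap kb C r‖, fun x _ => ⟨algebraMap C (A2 C) (algebraMap kb C r), ?_,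
      fun K _ φ ι h _ => h r⟩⟩
    change ‖algebraMap C (F0 C) (algebraMap kb C r)‖ ≤ _
    rw [norm_algebraMap_C]
  | add y z _ _ hy hz =>
    obtain ⟨M, hM⟩ := hy
    obtain ⟨M', hM'⟩ := hz
    refine ⟨max M M', fun x hx => ?_⟩
    obtain ⟨a, ha, h⟩ := hM x hx
    obtain ⟨a', ha', h'⟩ := hM' x hx
    refine ⟨a + a', ?_, fun K _ φ ι hk hs => by rw [map_add, map_add, h K φ ι hk hs,
      h' K φ ι hk hs]⟩
    change ‖(a : F0 C) + (a' : F0 C)‖ ≤ _
    exact (IsUltrametricDist.norm_add_le_max _ _).trans (max_le_max ha ha')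
  | mul y z _ _ hy hz =>
    obtain ⟨M, hM⟩ := hy
    obtain ⟨M', hM'⟩ := hz
    refine ⟨M * M', fun x hx => ?_⟩
    obtain ⟨a, ha, h⟩ := hM x hx
    obtain ⟨a', ha', h'⟩ := hM' x hx
    refine ⟨a * a', ?_, fun K _ φ ι hk hs => by rw [map_mul, map_mul, h K φ ι hk hs,
      h' K φ ι hk hs]⟩
    change ‖(a : F0 C) * (a' : F0 C)‖ ≤ _
    rw [norm_mul]
    exact mul_le_mul ha ha' (norm_nonneg _) ((norm_nonneg _).trans ha)

/-- scaling an integral element into the integral closure of the unit ball -/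
theorem exists_scale (s b : N) (hb : IsIntegral (Algebra.adjoin kb {s}) b) :
    ∃ M : ℝ, ∀ l : C, M ≤ ‖l‖ → ∀ x : A2 C, ‖(x : F0 C)‖ ≤ 1 →
      ∀ (K : Type x) [Field K] (φ : A2 C →+* K) (ι : N →+* K),
        (∀ r : kb, ι (algebraMap kb N r) = φ (algebraMap C (A2 C) (algebraMap kb C r))) →
        ι s = φ x → IntB φ (φ (algebraMap C (A2 C) l⁻¹) * ι b) := by
  obtain ⟨P, hP, hPb⟩ := hb
  choose M hM using fun i : ℕ => exists_bound.{u, v, w, x} (C := C) s ((P.coeff i : N)) (P.coeff i).2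
  let m := P.natDegree
  refine ⟨1 + ∑ i ∈ Finset.range m, |M i|, fun l hl x hx K _ φ ι hk hs => ?_⟩
  have hl1 : 1 ≤ ‖l‖ := le_trans (le_add_of_nonneg_right (Finset.sum_nonneg fun _ _ =>
    abs_nonneg _)) hl
  have hlM : ∀ i ∈ Finset.range m, M i ≤ ‖l‖ := by
    intro i hi
    refine (le_abs_self _).trans (le_trans ?_ hl)
    have h1 : |M i| ≤ ∑ i ∈ Finset.range m, |M i| :=
      Finset.single_le_sum (f := fun i => |M i|) (fun _ _ => abs_nonneg _) hi
    linarith
  have hl0 : l ≠ 0 := by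
    rintro rfl
    rw [norm_zero] at hl1
    linarith
  choose a ha ha2 using fun i : ℕ => hM i x hx
  -- the coefficients
  have hcoef : ∀ i ∈ Finset.range m, ‖((algebraMap C (A2 C) (l⁻¹ ^ (m - i)) * a i : A2 C) : F0 C)‖
      ≤ 1 := by
    intro i hi
    have hi' := Finset.mem_range.1 hi
    change ‖algebraMap C (F0 C) (l⁻¹ ^ (m - i)) * (a i : F0 C)‖ ≤ 1
    rw [norm_mul, norm_algebraMap_C, norm_pow, norm_inv]
    obtain ⟨k, hk'⟩ : ∃ k, m - i = k + 1 := ⟨m - i - 1, by omega⟩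
    rw [hk', pow_succ]
    have h1 : ‖l‖⁻¹ ^ k ≤ 1 := pow_le_one₀ (by positivity) (inv_le_one_of_one_le₀ hl1)
    have h2 : ‖l‖⁻¹ * ‖(a i : F0 C)‖ ≤ 1 := by
      rw [inv_mul_le_iff₀ (by linarith), mul_one]
      exact (ha i).trans (hlM i hi)
    calc ‖l‖⁻¹ ^ k * ‖l‖⁻¹ * ‖(a i : F0 C)‖ = ‖l‖⁻¹ ^ k * (‖l‖⁻¹ * ‖(a i : F0 C)‖) := by ring
      _ ≤ 1 * 1 := mul_le_mul h1 h2 (by positivity) zero_le_one
      _ = 1 := one_mul _
  let g : ℕ → B0 C := fun i => if h : i ∈ Finset.range m then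
    ⟨algebraMap C (A2 C) (l⁻¹ ^ (m - i)) * a i, hcoef i h⟩ else 0
  let G : (B0 C)[X] := X ^ m + ∑ i ∈ Finset.range m, Polynomial.C (g i) * X ^ i
  have hG : G.Monic := by
    apply monic_X_pow_add
    rw [← Polynomial.mem_degreeLT]
    exact sum_mem fun i hi => Polynomial.mem_degreeLT.2
      ((degree_C_mul_X_pow_le _ _).trans_lt (WithBot.coe_lt_coe.2 (Finset.mem_range.1 hi)))
  refine ⟨G, hG, ?_⟩
  -- the relation of `b`
  have hrel : (ι b) ^ m + ∑ i ∈ Finset.range m, φ (a i) * (ι b) ^ i = 0 := by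
    have h1 := hPb
    rw [eval₂_eq_sum_range, Finset.sum_range_succ] at h1
    have h2 := congrArg ι h1
    rw [map_add, map_sum, map_zero, map_mul, map_pow] at h2
    have h3 : algebraMap (Algebra.adjoin kb {s}) N (P.coeff P.natDegree) = 1 := by
      rw [hP.coeff_natDegree, map_one]
    rw [h3, map_one, one_mul, add_comm] at h2
    rw [← h2]
    congr 1
    apply Finset.sum_congr rfl
    intro i _
    rw [map_mul, map_pow]
    congr 1
    exact (ha2 i K φ ι hk hs).symm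
  set μ : K := φ (algebraMap C (A2 C) l⁻¹) with hμ
  have hμpow : ∀ n : ℕ, φ (algebraMap C (A2 C) (l⁻¹ ^ n)) = μ ^ n := by
    intro n
    rw [map_pow, map_pow]
  rw [eval₂_add, eval₂_pow, eval₂_X, eval₂_finsetSum]
  have h5 : ∀ i ∈ Finset.range m, eval₂ (φ.comp (B0 C).subtype) (μ * ι b)
      (Polynomial.C (g i) * X ^ i) = μ ^ m * (φ (a i) * (ι b) ^ i) := by
    intro i hi
    rw [eval₂_mul, eval₂_C, eval₂_pow, eval₂_X]
    have h6 : (φ.comp (B0 C).subtype) (g i) = φ (algebraMap C (A2 C) (l⁻¹ ^ (m - i)) * a i) := by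
      change φ ((g i : B0 C) : A2 C) = _
      simp only [g]
      rw [dif_pos hi]
    rw [h6, map_mul, hμpow, mul_pow]
    have h7 : μ ^ m = μ ^ (m - i) * μ ^ i := by
      rw [← pow_add]
      congr 1
      have := Finset.mem_range.1 hi
      omega
    rw [h7]
    ring
  rw [Finset.sum_congr rfl h5, ← Finset.mul_sum, mul_pow, ← mul_add, hrel, mul_zero]

end scale

end P025H937
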