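import Vale.Agent.P025.R2.H373.Gauss5

/-!
# The valuation ring at infinity of `F2` (helper937)

`Oinf C : ValuationSubring (F2 C)` is the localization of `A2` at the point at infinity.
`C(t)` is dense in `F2` for it, it has rank one, and it is the only valuation ring of `F2` which
contains `A2` but not `t`.
-/

open Polynomial

set_option linter.unusedSectionVars false

universe u v

namespace P025H937

open P025H373

section

variable {C : Type u} [NontriviallyNormedField C] [IsUltrametricDist C] [CompleteSpace C]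
  [IsAlgClosed C]

/-- regular at infinity -/
def Reg (x : F0 C) : Prop := ∃ b : A2 C, evInf C b ≠ 0 ∧ (b : F0 C) * x ∈ A2 C

theorem Reg.of_mem {x : F0 C} (hx : x ∈ A2 C) : Reg x :=
  ⟨1, by rw [map_one]; exact one_ne_zero, by rw [OneMemClass.coe_one, one_mul]; exact hx⟩

theorem Reg.mul {x y : F0 C} (hx : Reg x) (hy : Reg y) : Reg (x * y) := by
  obtain ⟨b, hb, hx⟩ := hx
  obtain ⟨c, hc, hy⟩ := hy
  refine ⟨b * c, by rw [map_mul]; exact mul_ne_zero hb hc, ?_⟩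
  rw [MulMemClass.coe_mul, mul_mul_mul_comm]
  exact mul_mem hx hy

theorem Reg.add {x y : F0 C} (hx : Reg x) (hy : Reg y) : Reg (x + y) := by
  obtain ⟨b, hb, hx⟩ := hx
  obtain ⟨c, hc, hy⟩ := hy
  refine ⟨b * c, by rw [map_mul]; exact mul_ne_zero hb hc, ?_⟩
  have h : ((b * c : A2 C) : F0 C) * (x + y) = c * (b * x) + b * (c * y) := by
    rw [MulMemClass.coe_mul]; ring
  rw [h]
  exact add_mem (mul_mem c.2 hx) (mul_mem b.2 hy)

theorem Reg.inv_of {b : A2 C} (hb : evInf C b ≠ 0) : Reg ((b : F0 C)⁻¹) := by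
  refine ⟨b, hb, ?_⟩
  have h0 : (b : F0 C) ≠ 0 := by
    intro h
    have : b = 0 := Subtype.ext h
    rw [this, map_zero] at hb
    exact hb rfl
  rw [mul_inv_cancel₀ h0]
  exact one_mem _

theorem ev_one_add {h : F0 C} (hh : h ∈ A2 C) (h1 : ‖h‖ < 1) :
    evInf C ⟨1 + h, add_mem (one_mem _) hh⟩ ≠ 0 := by
  intro h0
  have e : (⟨1 + h, add_mem (one_mem _) hh⟩ : A2 C) = 1 + ⟨h, hh⟩ := rfl
  rw [e, map_add, map_one] at h0
  have h2 := norm_evInf_le (C := C) ⟨h, hh⟩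
  have h3 : evInf C ⟨h, hh⟩ = -1 := by linear_combination h0
  rw [h3, norm_neg, norm_one] at h2
  exact absurd h1 (not_lt.2 h2)

/-- a quotient of polynomials is regular at infinity if `deg P ≤ deg Q` -/
theorem Reg.div {P Q : C[X]} (hQ : Q ≠ 0) (hd : P.natDegree ≤ Q.natDegree) :
    Reg (aeval (tt C) P / aeval (tt C) Q) := by
  have ht : tt C ≠ 0 := tt_ne_zero
  have hQ0 : aeval (tt C) Q ≠ 0 := fun h => hQ (aeval_inj.mp h)
  have hm : aeval (tt C) Q * (tt C)⁻¹ ^ Q.natDegree ∈ A2 C := aeval_mul_inv_pow_mem le_rfl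
  refine ⟨⟨_, hm⟩, ?_, ?_⟩
  · have h := evInf_div Q (X ^ Q.natDegree) (monic_X_pow _)
      (by rw [degree_X_pow]; exact degree_le_natDegree) (gp_le_iff.mp (gp_X_pow _).le) ⟨_, hm⟩
      (by
        rw [map_pow (aeval (tt C)) X, aeval_X]
        exact (congrArg (fun z => aeval (tt C) Q * z) (inv_pow _ _)).trans
          (div_eq_mul_inv _ _).symm)
    rw [h, natDegree_X_pow]
    exact leadingCoeff_ne_zero.mpr hQ
  · have e : aeval (tt C) Q * (tt C)⁻¹ ^ Q.natDegree * (aeval (tt C) P / aeval (tt C) Q) =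
        aeval (tt C) P * (tt C)⁻¹ ^ Q.natDegree := by
      field_simp
    change aeval (tt C) Q * (tt C)⁻¹ ^ Q.natDegree * (aeval (tt C) P / aeval (tt C) Q) ∈ A2 C
    rw [e]
    exact aeval_mul_inv_pow_mem hd

theorem exists_rep {x : F2 C} (h0 : x ≠ 0) : ∃ P Q : C[X], P ≠ 0 ∧ Q ≠ 0 ∧ ∃ h ∈ A2 C, ‖h‖ < 1 ∧
    (x : F0 C) = aeval (tt C) P / aeval (tt C) Q * (1 + h) := by
  obtain ⟨g, hg, h, hh, h1, hx⟩ := (mem_F2_iff (x := (x : F0 C)) (by
    rwa [Ne, ZeroMemClass.coe_eq_zero])).mp x.2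
  refine ⟨g.num, g.denom, RatFunc.num_ne_zero hg, g.denom_ne_zero, h, hh, h1, ?_⟩
  rw [hx]
  congr 1
  rw [← algebraMap_poly, ← algebraMap_poly, ← map_div₀, g.num_div_denom]

theorem reg_or_inv (x : F2 C) : Reg (x : F0 C) ∨ Reg ((x⁻¹ : F2 C) : F0 C) := by
  by_cases h0 : x = 0
  · left
    rw [h0, ZeroMemClass.coe_zero]
    exact Reg.of_mem (zero_mem _)
  obtain ⟨P, Q, hP, hQ, h, hh, h1, hx⟩ := exists_rep h0
  rcases le_total P.natDegree Q.natDegree with hd | hd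
  · left
    rw [hx]
    exact (Reg.div hQ hd).mul (Reg.of_mem (add_mem (one_mem _) hh))
  · right
    have e : ((x⁻¹ : F2 C) : F0 C) = aeval (tt C) Q / aeval (tt C) P * (1 + h)⁻¹ := by
      have : ((x⁻¹ : F2 C) : F0 C) = (x : F0 C)⁻¹ := rfl
      rw [this, hx, mul_inv, inv_div]
    rw [e]
    exact (Reg.div hP hd).mul (Reg.of_mem (exists_inv_A2 hh h1).1)

variable (C) in
/-- the valuation ring at infinity of `F2` -/
noncomputable def Oinf : ValuationSubring (F2 C) where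
  carrier := {x | Reg (x : F0 C)}
  mul_mem' := fun ha hb => Reg.mul ha hb
  one_mem' := Reg.of_mem (one_mem _)
  add_mem' := fun ha hb => Reg.add ha hb
  zero_mem' := Reg.of_mem (zero_mem _)
  neg_mem' := by
    intro x hx
    obtain ⟨b, hb, hx⟩ := hx
    refine ⟨b, hb, ?_⟩
    have e : (b : F0 C) * ((-x : F2 C) : F0 C) = -((b : F0 C) * (x : F0 C)) := by
      rw [← mul_neg]; rfl
    rw [e]
    exact neg_mem hx
  mem_or_inv_mem' := reg_or_inv

theorem mem_Oinf {x : F2 C} : x ∈ Oinf C ↔ Reg (x : F0 C) := Iff.rfl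

variable (C) in
/-- the variable `t` as an element of `F2` -/
noncomputable def t2 : F2 C := algebraMap (RatFunc C) (F2 C) RatFunc.X

theorem coe_t2 : ((t2 C : F2 C) : F0 C) = tt C := rfl

theorem t2_ne : t2 C ≠ 0 := by
  intro h
  have h1 : ((t2 C : F2 C) : F0 C) = 0 := by rw [h]; rfl
  exact tt_ne_zero h1

theorem coe_inv (x : F2 C) : ((x⁻¹ : F2 C) : F0 C) = (x : F0 C)⁻¹ := rfl

theorem coe_pow' (x : F2 C) (n : ℕ) : ((x ^ n : F2 C) : F0 C) = (x : F0 C) ^ n := rfl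

theorem inv_t2_mem : (t2 C)⁻¹ ∈ Oinf C := Reg.of_mem inv_tt_mem_A2

theorem t2_not_mem : t2 C ∉ Oinf C := by
  rintro ⟨b, hb, h⟩
  apply hb
  rw [evInf_eq_zero_iff]
  rw [mul_comm]
  exact h

variable (C) in
/-- elements of `A2` in `F2` -/
noncomputable def a2 : A2 C →+* F2 C where
  toFun a := ⟨a, A2_le_F2 a.2⟩
  map_one' := rfl
  map_zero' := rfl
  map_mul' _ _ := rfl
  map_add' _ _ := rfl

theorem coe_a2 (a : A2 C) : ((a2 C a : F2 C) : F0 C) = a := rfl

theorem a2_mem (a : A2 C) : a2 C a ∈ Oinf C := Reg.of_mem a.2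

theorem a2_injective : Function.Injective (a2 C) := fun _ _ h =>
  Subtype.ext (congrArg (fun z : F2 C => (z : F0 C)) h)

/-- every element of `F2` is a quotient of elements of `A2` -/
theorem exists_div_a2 (x : F2 C) : ∃ a b : A2 C, b ≠ 0 ∧ x = a2 C a / a2 C b := by
  obtain ⟨g, hg, hg0, h⟩ := mem_F2.mp x.2
  have hg' : algebraMap (RatFunc C) (F0 C) g ≠ 0 := alg_ne_zero hg0
  refine ⟨⟨_, h⟩, ⟨_, algebraMap_mem_A2 hg⟩, ?_, ?_⟩
  · intro h0
    exact hg' (congrArg Subtype.val h0)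
  · have h1 : a2 C ⟨_, algebraMap_mem_A2 hg⟩ ≠ 0 := by
      intro h0
      exact hg' (congrArg Subtype.val h0)
    rw [eq_div_iff h1]
    apply Subtype.ext
    change (x : F0 C) * algebraMap (RatFunc C) (F0 C) g = algebraMap (RatFunc C) (F0 C) g * x
    ring

/-- constants -/
theorem algebraMap_a2 (c : C) : algebraMap C (F2 C) c = a2 C (algebraMap C (A2 C) c) := rfl

/-- decomposition of the elements of `A2` -/
theorem exists_dec_a2 (a : A2 C) : ∃ a' : A2 C,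
    a2 C a = algebraMap C (F2 C) (evInf C a) + (t2 C)⁻¹ * a2 C a' := by
  refine ⟨⟨_, evInf_spec a⟩, ?_⟩
  apply Subtype.ext
  have ht : tt C ≠ 0 := tt_ne_zero
  change (a : F0 C) = algebraMap C (F0 C) (evInf C a) +
    (tt C)⁻¹ * (tt C * ((a : F0 C) - algebraMap C (F0 C) (evInf C a)))
  rw [inv_mul_cancel_left₀ ht]
  ring

theorem inv_a2_mem {b : A2 C} (hb : evInf C b ≠ 0) : (a2 C b)⁻¹ ∈ Oinf C := Reg.inv_of hb

theorem mem_Oinf_iff {x : F2 C} : x ∈ Oinf C ↔ ∃ a b : A2 C, evInf C b ≠ 0 ∧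
    x = a2 C a / a2 C b := by
  constructor
  · rintro ⟨b, hb, h⟩
    have hb0 : a2 C b ≠ 0 := by
      intro h0
      have : b = 0 := a2_injective (by rw [h0, map_zero])
      rw [this, map_zero] at hb
      exact hb rfl
    refine ⟨⟨_, h⟩, b, hb, ?_⟩
    rw [eq_div_iff hb0]
    apply Subtype.ext
    change (x : F0 C) * b = b * x
    ring
  · rintro ⟨a, b, hb, rfl⟩
    rw [div_eq_mul_inv]
    exact mul_mem (a2_mem a) (inv_a2_mem hb)

theorem a2_ne {b : A2 C} (hb : evInf C b ≠ 0) : a2 C b ≠ 0 := by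
  intro h0
  have : b = 0 := a2_injective (by rw [h0, map_zero])
  rw [this, map_zero] at hb
  exact hb rfl

/-- decomposition of the elements of the valuation ring at infinity -/
theorem exists_dec {x : F2 C} (hx : x ∈ Oinf C) : ∃ c : C, ∃ y ∈ Oinf C,
    x = algebraMap C (F2 C) c + (t2 C)⁻¹ * y := by
  obtain ⟨a, b, hb, rfl⟩ := mem_Oinf_iff.mp hx
  have hb0 := a2_ne hb
  obtain ⟨a', ha'⟩ := exists_dec_a2 (a - algebraMap C (A2 C) (evInf C a / evInf C b) * b)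
  refine ⟨evInf C a / evInf C b, a2 C a' / a2 C b, ?_, ?_⟩
  · rw [div_eq_mul_inv]
    exact mul_mem (a2_mem _) (inv_a2_mem hb)
  · have h1 : evInf C (a - algebraMap C (A2 C) (evInf C a / evInf C b) * b) = 0 := by
      rw [map_sub, map_mul, AlgHom.commutes, Algebra.algebraMap_self_apply,
        div_mul_cancel₀ _ hb, sub_self]
    rw [h1, map_zero, zero_add, map_sub, map_mul, ← algebraMap_a2] at ha'
    rw [← mul_div_assoc, ← ha', sub_div, mul_div_assoc, div_self hb0, mul_one]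
    ring

/-- rank one -/
theorem exists_pow_mem (x : F2 C) : ∃ m : ℕ, (t2 C)⁻¹ ^ m * x ∈ Oinf C := by
  by_cases h0 : x = 0
  · exact ⟨0, by rw [h0, mul_zero]; exact zero_mem _⟩
  obtain ⟨P, Q, hP, hQ, h, hh, h1, hx⟩ := exists_rep h0
  refine ⟨P.natDegree, ?_⟩
  rw [mem_Oinf]
  have ht : tt C ≠ 0 := tt_ne_zero
  have e : (((t2 C)⁻¹ ^ P.natDegree * x : F2 C) : F0 C) =
      aeval (tt C) P * (tt C)⁻¹ ^ P.natDegree * (1 / aeval (tt C) Q) * (1 + h) := by
    change (tt C)⁻¹ ^ P.natDegree * (x : F0 C) = _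
    rw [hx]
    ring
  rw [e]
  refine ((Reg.of_mem (aeval_mul_inv_pow_mem le_rfl)).mul ?_).mul
    (Reg.of_mem (add_mem (one_mem _) hh))
  have := Reg.div (P := (1 : C[X])) hQ (by rw [natDegree_one]; exact Nat.zero_le _)
  rwa [map_one] at this

theorem exists_approx_Oinf (n : ℕ) : ∀ z ∈ Oinf C, ∃ p : RatFunc C,
    t2 C ^ n * (z - algebraMap (RatFunc C) (F2 C) p) ∈ Oinf C := by
  induction n with
  | zero =>
    intro z hz
    exact ⟨0, by rwa [map_zero, sub_zero, pow_zero, one_mul]⟩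
  | succ n ih =>
    intro z hz
    obtain ⟨c, y, hy, rfl⟩ := exists_dec hz
    obtain ⟨p, hp⟩ := ih y hy
    refine ⟨RatFunc.C c + RatFunc.X⁻¹ * p, ?_⟩
    have ht : t2 C ≠ 0 := t2_ne
    have e : t2 C ^ (n + 1) * (algebraMap C (F2 C) c + (t2 C)⁻¹ * y -
        algebraMap (RatFunc C) (F2 C) (RatFunc.C c + RatFunc.X⁻¹ * p)) =
        t2 C ^ n * (y - algebraMap (RatFunc C) (F2 C) p) := by
      rw [map_add, map_mul, map_inv₀]
      change t2 C ^ (n + 1) * (algebraMap C (F2 C) c + (t2 C)⁻¹ * y -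
        (algebraMap C (F2 C) c + (t2 C)⁻¹ * algebraMap (RatFunc C) (F2 C) p)) = _
      field_simp
      ring
    rw [e]
    exact hp

/-- density -/
theorem exists_approx (x : F2 C) (m : ℕ) : ∃ p : RatFunc C,
    t2 C ^ m * (x - algebraMap (RatFunc C) (F2 C) p) ∈ Oinf C := by
  obtain ⟨m₀, hm₀⟩ := exists_pow_mem x
  obtain ⟨p, hp⟩ := exists_approx_Oinf (m + m₀) _ hm₀
  refine ⟨RatFunc.X ^ m₀ * p, ?_⟩
  have ht : t2 C ≠ 0 := t2_ne
  have e : t2 C ^ m * (x - algebraMap (RatFunc C) (F2 C) (RatFunc.X ^ m₀ * p)) =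
      t2 C ^ (m + m₀) * ((t2 C)⁻¹ ^ m₀ * x - algebraMap (RatFunc C) (F2 C) p) := by
    rw [map_mul, map_pow]
    change t2 C ^ m * (x - t2 C ^ m₀ * algebraMap (RatFunc C) (F2 C) p) = _
    rw [pow_add, mul_assoc, mul_sub (t2 C ^ m₀), ← mul_assoc (t2 C ^ m₀) ((t2 C)⁻¹ ^ m₀) x,
      ← mul_pow, mul_inv_cancel₀ ht, one_pow, one_mul]
  rw [e]
  exact hp

end

section comap

variable {C : Type u} [NontriviallyNormedField C] [IsUltrametricDist C] [CompleteSpace C]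
  [IsAlgClosed C] {Ω : Type v} [Field Ω] (φ : F2 C →+* Ω) (O : ValuationSubring Ω)

theorem val_const (hA : ∀ a : A2 C, φ (a2 C a) ∈ O) {c : C} (hc : c ≠ 0) :
    O.valuation (φ (algebraMap C (F2 C) c)) = 1 := by
  have h1 : O.valuation (φ (algebraMap C (F2 C) c)) ≤ 1 :=
    (O.valuation_le_one_iff _).mpr (by rw [algebraMap_a2]; exact hA _)
  have h2 : O.valuation (φ (algebraMap C (F2 C) c⁻¹)) ≤ 1 :=
    (O.valuation_le_one_iff _).mpr (by rw [algebraMap_a2]; exact hA _)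
  rw [map_inv₀, map_inv₀, map_inv₀] at h2
  refine le_antisymm h1 ?_
  have h0 : O.valuation (φ (algebraMap C (F2 C) c)) ≠ 0 := by
    rw [Ne, map_eq_zero, map_eq_zero, map_eq_zero]
    exact hc
  rwa [inv_le_one₀ (zero_lt_iff.mpr h0)] at h2

theorem val_t2 (ht : φ (t2 C) ∉ O) : 1 < O.valuation (φ (t2 C)) := by
  by_contra h
  exact ht ((O.valuation_le_one_iff _).mp (not_lt.mp h))

theorem val_inv_t2 (ht : φ (t2 C) ∉ O) : O.valuation (φ (t2 C)⁻¹) < 1 := by
  have h := val_t2 φ O ht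
  rw [map_inv₀, map_inv₀]
  exact inv_lt_one_of_one_lt₀ h

theorem val_a2_unit (hA : ∀ a : A2 C, φ (a2 C a) ∈ O) (ht : φ (t2 C) ∉ O) {b : A2 C}
    (hb : evInf C b ≠ 0) : O.valuation (φ (a2 C b)) = 1 := by
  obtain ⟨b', hb'⟩ := exists_dec_a2 b
  rw [hb', map_add, map_mul]
  rw [Valuation.map_add_eq_of_lt_left]
  · exact val_const φ O hA hb
  · rw [val_const φ O hA hb, map_mul]
    exact mul_lt_one_of_lt_of_le (val_inv_t2 φ O ht) ((O.valuation_le_one_iff _).mpr (hA b'))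

theorem mem_iff_Oinf (hA : ∀ a : A2 C, φ (a2 C a) ∈ O) (ht : φ (t2 C) ∉ O) (x : F2 C) :
    φ x ∈ O ↔ x ∈ Oinf C := by
  have key : ∀ y ∈ Oinf C, φ y ∈ O := by
    intro y hy
    obtain ⟨a, b, hb, rfl⟩ := mem_Oinf_iff.mp hy
    rw [← O.valuation_le_one_iff, map_div₀, map_div₀, val_a2_unit φ O hA ht hb, div_one]
    exact (O.valuation_le_one_iff _).mpr (hA a)
  refine ⟨fun hx => ?_, key x⟩
  by_contra hn
  have hx0 : x ≠ 0 := by
    rintro rfl
    exact hn (zero_mem _)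
  have hi : x⁻¹ ∈ Oinf C := ((Oinf C).mem_or_inv_mem x).resolve_left hn
  obtain ⟨c, y, hy, hxy⟩ := exists_dec hi
  by_cases hc : c = 0
  · rw [hc, map_zero, zero_add] at hxy
    have h1 : O.valuation (φ x⁻¹) < 1 := by
      rw [hxy, map_mul, map_mul]
      exact mul_lt_one_of_lt_of_le (val_inv_t2 φ O ht) ((O.valuation_le_one_iff _).mpr (key y hy))
    have h2 : O.valuation (φ x) ≤ 1 := (O.valuation_le_one_iff _).mpr hx
    have h3 : O.valuation (φ x) * O.valuation (φ x⁻¹) = 1 := by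
      rw [← map_mul, ← map_mul, mul_inv_cancel₀ hx0, map_one, map_one]
    have h4 : O.valuation (φ x) * O.valuation (φ x⁻¹) < 1 := by
      rw [mul_comm]
      exact mul_lt_one_of_lt_of_le h1 h2
    exact absurd h3 h4.ne
  · apply hn
    -- `x⁻¹` is a unit at infinity
    obtain ⟨a, b, hb, hab⟩ := mem_Oinf_iff.mp hi
    obtain ⟨y', z, hz, hyz⟩ := mem_Oinf_iff.mp hy
    have hz0 := a2_ne hz
    have e : x⁻¹ = a2 C (algebraMap C (A2 C) c * z +
        ⟨(tt C)⁻¹, inv_tt_mem_A2⟩ * y') / a2 C z := by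
      rw [map_add, map_mul, map_mul, ← algebraMap_a2]
      change _ = (algebraMap C (F2 C) c * a2 C z + (t2 C)⁻¹ * a2 C y') / a2 C z
      rw [hxy, hyz]
      field_simp
    have hev : evInf C (algebraMap C (A2 C) c * z + ⟨(tt C)⁻¹, inv_tt_mem_A2⟩ * y') ≠ 0 := by
      have h5 : evInf C ⟨(tt C)⁻¹, inv_tt_mem_A2⟩ = 0 := by
        rw [evInf_eq_zero_iff]
        change tt C * (tt C)⁻¹ ∈ A2 C
        rw [mul_inv_cancel₀ tt_ne_zero]
        exact one_mem _
      rw [map_add, map_mul, map_mul, AlgHom.commutes, h5, zero_mul, add_zero,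
        Algebra.algebraMap_self_apply]
      exact mul_ne_zero hc hz
    have e2 : x = a2 C z / a2 C (algebraMap C (A2 C) c * z + ⟨(tt C)⁻¹, inv_tt_mem_A2⟩ * y') := by
      rw [← inv_inv x, e, inv_div]
    rw [e2]
    exact mem_Oinf_iff.mpr ⟨_, _, hev, rfl⟩

end comap

end P025H937
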