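import Vale.Agent.P025.R2.H720.NC

/-!
# Valuation rings of a field of transcendence degree one over an algebraically closed field
(helper937): growth of the elements, residues, leading elements.
-/

open Polynomial

namespace P025H937

open P025H720

section growth

variable {R E : Type*} [CommRing R] [Field E] [Algebra R E] (O : ValuationSubring E) {T : E}

theorem one_lt_val (hT : T ∉ O) : 1 < O.valuation T := by
  by_contra h
  exact hT ((O.valuation_le_one_iff _).mp (not_lt.mp h))

/-- algebraic elements are bounded by powers of `T` -/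
theorem val_le_pow (hT : T ∉ O)
    (h1 : ∀ a : R, ∃ m : ℕ, O.valuation (algebraMap R E a) ≤ O.valuation T ^ m)
    (h2 : ∀ a : R, a ≠ 0 → ∃ m : ℕ, 1 ≤ O.valuation T ^ m * O.valuation (algebraMap R E a))
    {x : E} (hx : IsAlgebraic R x) : ∃ m : ℕ, O.valuation x ≤ O.valuation T ^ m := by
  have hT1 : 1 < O.valuation T := one_lt_val O hT
  by_cases hx1 : O.valuation x ≤ 1
  · exact ⟨0, by rwa [pow_zero]⟩
  rw [not_le] at hx1
  have hx0 : 0 < O.valuation x := zero_lt_one.trans hx1
  obtain ⟨P, hP0, hP⟩ := hx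
  choose m hm using h1
  obtain ⟨m', hm'⟩ := h2 P.leadingCoeff (leadingCoeff_ne_zero.mpr hP0)
  set n := P.natDegree with hn
  have hn0 : n ≠ 0 := by
    intro h0
    rw [eq_C_of_natDegree_eq_zero (p := P) (hn ▸ h0), aeval_C] at hP
    have h3 : P.leadingCoeff = P.coeff 0 := by
      rw [leadingCoeff, ← hn, h0]
    rw [h3, hP, map_zero, mul_zero] at hm'
    exact absurd hm' (not_le.mpr zero_lt_one)
  obtain ⟨n', hn'⟩ : ∃ n', n = n' + 1 := ⟨n - 1, by omega⟩
  let D := ∑ i ∈ Finset.range n, m (P.coeff i)
  have hle : ∀ i ∈ Finset.range n, O.valuation (algebraMap R E (P.coeff i) * x ^ i) ≤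
      O.valuation T ^ D * O.valuation x ^ n' := by
    intro i hi
    rw [map_mul, map_pow]
    refine mul_le_mul' ((hm _).trans ?_) ?_
    · exact pow_le_pow_right₀ hT1.le (Finset.single_le_sum (f := fun i => m (P.coeff i))
        (fun _ _ => Nat.zero_le _) hi)
    · refine pow_le_pow_right₀ hx1.le ?_
      rw [Finset.mem_range] at hi
      omega
  have hsum : algebraMap R E P.leadingCoeff * x ^ n =
      -∑ i ∈ Finset.range n, algebraMap R E (P.coeff i) * x ^ i := by
    rw [aeval_eq_sum_range, ← hn, Finset.sum_range_succ] at hP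
    simp only [Algebra.smul_def] at hP
    rw [leadingCoeff, ← hn]
    linear_combination hP
  have h3 : O.valuation (algebraMap R E P.leadingCoeff) * O.valuation x ^ n ≤
      O.valuation T ^ D * O.valuation x ^ n' := by
    rw [← map_pow, ← map_mul, hsum, Valuation.map_neg]
    exact Valuation.map_sum_le _ hle
  refine ⟨m' + D, ?_⟩
  have h4 : O.valuation x ^ n ≤ O.valuation T ^ (m' + D) * O.valuation x ^ n' := by
    calc O.valuation x ^ n = 1 * O.valuation x ^ n := (one_mul _).symm
      _ ≤ O.valuation T ^ m' * O.valuation (algebraMap R E P.leadingCoeff) *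
          O.valuation x ^ n := mul_le_mul' hm' le_rfl
      _ = O.valuation T ^ m' * (O.valuation (algebraMap R E P.leadingCoeff) *
          O.valuation x ^ n) := mul_assoc _ _ _
      _ ≤ O.valuation T ^ m' * (O.valuation T ^ D * O.valuation x ^ n') :=
          mul_le_mul' le_rfl h3
      _ = O.valuation T ^ (m' + D) * O.valuation x ^ n' := by rw [pow_add, mul_assoc]
  rw [hn', pow_succ, mul_comm (O.valuation x ^ n') (O.valuation x)] at h4
  have h5 : O.valuation x ^ n' ≠ 0 := pow_ne_zero _ hx0.ne'
  exact le_of_mul_le_mul_right h4 (zero_lt_iff.mpr h5)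

end growth

section const

variable {kb N : Type*} [Field kb] [Field N] [Algebra kb N] (W : ValuationSubring N)
  (hk : ∀ a : kb, algebraMap kb N a ∈ W) {T : N}

include hk

theorem val_const_N {a : kb} (ha : a ≠ 0) : W.valuation (algebraMap kb N a) = 1 := by
  have h1 : W.valuation (algebraMap kb N a) ≤ 1 := (W.valuation_le_one_iff _).mpr (hk a)
  have h2 : W.valuation (algebraMap kb N a⁻¹) ≤ 1 := (W.valuation_le_one_iff _).mpr (hk _)
  rw [map_inv₀, map_inv₀] at h2
  refine le_antisymm h1 ?_
  have h0 : W.valuation (algebraMap kb N a) ≠ 0 := by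
    rw [Ne, map_eq_zero, map_eq_zero]
    exact ha
  rwa [inv_le_one₀ (zero_lt_iff.mpr h0)] at h2

theorem val_const_le (a : kb) : W.valuation (algebraMap kb N a) ≤ 1 :=
  (W.valuation_le_one_iff _).mpr (hk a)

/-- `T^(-D) p(T)` is close to the coefficient of degree `D` -/
theorem val_aeval_sub (hT : T ∉ W) {p : kb[X]} {D : ℕ} (hp : p.natDegree ≤ D) :
    W.valuation (T⁻¹ ^ D * aeval T p - algebraMap kb N (p.coeff D)) < 1 := by
  have hT1 : 1 < W.valuation T := one_lt_val W hT
  have hT0 : T ≠ 0 := by
    rintro rfl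
    exact hT (zero_mem _)
  have h1 : T⁻¹ ^ D * aeval T p - algebraMap kb N (p.coeff D) =
      ∑ i ∈ Finset.range D, algebraMap kb N (p.coeff i) * T⁻¹ ^ (D - i) := by
    rw [aeval_eq_sum_range' (Nat.lt_succ_of_le hp), Finset.sum_range_succ, mul_add,
      Finset.mul_sum]
    simp only [Algebra.smul_def]
    have h2 : T⁻¹ ^ D * (algebraMap kb N (p.coeff D) * T ^ D) = algebraMap kb N (p.coeff D) := by
      rw [mul_left_comm, ← mul_pow, inv_mul_cancel₀ hT0, one_pow, mul_one]
    rw [h2, add_sub_cancel_right]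
    apply Finset.sum_congr rfl
    intro i hi
    rw [Finset.mem_range] at hi
    have h3 : T⁻¹ ^ D = T⁻¹ ^ (D - i) * T⁻¹ ^ i := by
      rw [← pow_add, Nat.sub_add_cancel hi.le]
    rw [h3]
    have h4 : T⁻¹ ^ i * T ^ i = 1 := by rw [← mul_pow, inv_mul_cancel₀ hT0, one_pow]
    linear_combination (algebraMap kb N (p.coeff i) * T⁻¹ ^ (D - i)) * h4
  rw [h1]
  refine Valuation.map_sum_lt _ one_ne_zero ?_
  intro i hi
  rw [Finset.mem_range] at hi
  rw [map_mul, map_pow, map_inv₀, mul_comm]
  refine mul_lt_one_of_lt_of_le ?_ (val_const_le W hk _)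
  exact pow_lt_one₀ zero_le (inv_lt_one_of_one_lt₀ hT1) (by omega)

theorem val_aeval (hT : T ∉ W) {p : kb[X]} (hp : p ≠ 0) :
    W.valuation (aeval T p) = W.valuation T ^ p.natDegree := by
  have hT0 : T ≠ 0 := by
    rintro rfl
    exact hT (zero_mem _)
  have h1 := val_aeval_sub W hk hT (le_refl p.natDegree)
  have h2 : W.valuation (algebraMap kb N (p.coeff p.natDegree)) = 1 :=
    val_const_N W hk (leadingCoeff_ne_zero.mpr hp)
  have h3 : W.valuation (T⁻¹ ^ p.natDegree * aeval T p) = 1 := by
    have h4 : T⁻¹ ^ p.natDegree * aeval T p =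
        (T⁻¹ ^ p.natDegree * aeval T p - algebraMap kb N (p.coeff p.natDegree)) +
          algebraMap kb N (p.coeff p.natDegree) := by ring
    rw [h4, Valuation.map_add_eq_of_lt_right _ (by rw [h2]; exact h1), h2]
  rw [map_mul, map_pow, map_inv₀] at h3
  have h5 : W.valuation T ^ p.natDegree ≠ 0 := pow_ne_zero _ (by rwa [Ne, map_eq_zero])
  rw [inv_pow] at h3
  exact (inv_mul_eq_one₀ h5).mp h3 |>.symm

theorem transcendental_of_notMem [IsAlgClosed kb] (hT : T ∉ W) : Transcendental kb T := by
  rw [transcendental_iff]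
  intro p hp
  by_contra h0
  have h1 := val_aeval W hk hT h0
  rw [hp, map_zero] at h1
  have hT0 : T ≠ 0 := by
    rintro rfl
    exact hT (zero_mem _)
  exact pow_ne_zero _ ((_root_.map_ne_zero W.valuation).mpr hT0) h1.symm

/-- every element of `N` is bounded by a power of `T` -/
theorem val_le_pow_N [IsAlgClosed kb] [TrdegOne kb N] (hT : T ∉ W) (x : N) :
    ∃ m : ℕ, W.valuation x ≤ W.valuation T ^ m := by
  have hT1 : 1 < W.valuation T := one_lt_val W hT
  have hx := TrdegOne.alg (kb := kb) T x (transcendental_of_notMem W hk hT)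
  have hR : ∀ a : Algebra.adjoin kb {T}, a ≠ 0 → ∃ m : ℕ,
      W.valuation (algebraMap (Algebra.adjoin kb {T}) N a) = W.valuation T ^ m := by
    rintro ⟨a, ha⟩ h0
    rw [Algebra.adjoin_singleton_eq_range_aeval] at ha
    obtain ⟨p, hp⟩ := ha
    have hp' : aeval T p = a := hp
    refine ⟨p.natDegree, ?_⟩
    change W.valuation a = _
    rw [← hp']
    apply val_aeval W hk hT
    rintro rfl
    rw [map_zero] at hp'
    exact h0 (Subtype.ext hp'.symm)
  refine val_le_pow (R := Algebra.adjoin kb {T}) W hT ?_ ?_ hx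
  · intro a
    by_cases h0 : a = 0
    · exact ⟨0, by rw [h0, map_zero, map_zero]; exact zero_le⟩
    · obtain ⟨m, hm⟩ := hR a h0
      exact ⟨m, hm.le⟩
  · intro a h0
    obtain ⟨m, hm⟩ := hR a h0
    refine ⟨0, ?_⟩
    rw [pow_zero, one_mul, hm]
    exact one_le_pow₀ hT1.le

/-- residues are constants -/
theorem exists_res [IsAlgClosed kb] [TrdegOne kb N] (hT : T ∉ W) {x : N} (hx : x ∈ W) :
    ∃ a : kb, W.valuation (x - algebraMap kb N a) < 1 := by
  classical
  have hT1 : 1 < W.valuation T := one_lt_val W hT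
  have hT0 : T ≠ 0 := by
    rintro rfl
    exact hT (zero_mem _)
  obtain ⟨P, hP0, hP⟩ := TrdegOne.alg (kb := kb) T x (transcendental_of_notMem W hk hT)
  have hc : ∀ i, ∃ p : kb[X], aeval T p = (P.coeff i : N) := by
    intro i
    have h1 : (P.coeff i : N) ∈ (Algebra.adjoin kb {T} : Subalgebra kb N) := (P.coeff i).2
    have h2 := Algebra.adjoin_singleton_eq_range_aeval kb T
    have h3 : (P.coeff i : N) ∈ (aeval T : kb[X] →ₐ[kb] N).range := h2 ▸ h1
    exact h3
  choose p hp using hc
  have hp0 : ∀ i, P.coeff i ≠ 0 → p i ≠ 0 := by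
    intro i hi h0
    apply hi
    apply Subtype.ext
    rw [← hp i, h0, map_zero]
    rfl
  obtain ⟨j, hj, hjmax⟩ := Finset.exists_max_image P.support (fun i => (p i).natDegree)
    (Polynomial.support_nonempty.mpr hP0)
  rw [Polynomial.mem_support_iff] at hj
  let D := (p j).natDegree
  let q : kb[X] := ∑ i ∈ P.support, Polynomial.C ((p i).coeff D) * X ^ i
  have hq0 : q ≠ 0 := by
    intro h0
    have h1 := congrArg (fun f => Polynomial.coeff f j) h0
    simp only [q, Polynomial.finsetSum_coeff, Polynomial.coeff_C_mul, Polynomial.coeff_X_pow,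
      Polynomial.coeff_zero] at h1
    rw [Finset.sum_eq_single j] at h1
    · simp only [if_true, mul_one] at h1
      exact (leadingCoeff_ne_zero.mpr (hp0 j hj)) h1
    · intro b _ hb
      rw [if_neg (fun h => hb h.symm), mul_zero]
    · intro h2
      exact absurd (Polynomial.mem_support_iff.mpr hj) h2
  have hvq : W.valuation (aeval x q) < 1 := by
    have h1 : ∑ i ∈ P.support, (P.coeff i : N) * x ^ i = 0 := by
      rw [aeval_eq_sum_range] at hP
      have h2 : ∑ i ∈ P.support, (P.coeff i : N) * x ^ i =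
          ∑ i ∈ Finset.range (P.natDegree + 1), P.coeff i • x ^ i := by
        have h2' : ∀ i ∈ Finset.range (P.natDegree + 1), i ∉ P.support →
            P.coeff i • x ^ i = 0 := by
          intro i _ hi
          rw [Polynomial.mem_support_iff, not_not] at hi
          rw [hi, zero_smul]
        rw [← Finset.sum_subset (s₁ := P.support) (fun i hi => by
          rw [Finset.mem_range]
          exact Nat.lt_succ_of_le (le_natDegree_of_mem_supp i hi)) h2']
        rfl
      rw [h2, hP]
    have h2 : aeval x q = -∑ i ∈ P.support,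
        (T⁻¹ ^ D * aeval T (p i) - algebraMap kb N ((p i).coeff D)) * x ^ i := by
      have h3 : ∑ i ∈ P.support,
          (T⁻¹ ^ D * aeval T (p i) - algebraMap kb N ((p i).coeff D)) * x ^ i =
          T⁻¹ ^ D * (∑ i ∈ P.support, (P.coeff i : N) * x ^ i) - aeval x q := by
        rw [Finset.mul_sum, map_sum, ← Finset.sum_sub_distrib]
        apply Finset.sum_congr rfl
        intro i _
        rw [map_mul, aeval_C, map_pow, aeval_X, hp]
        ring
      rw [h3, h1, mul_zero, zero_sub, neg_neg]
    rw [h2, Valuation.map_neg]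
    refine Valuation.map_sum_lt _ one_ne_zero ?_
    intro i hi
    rw [map_mul, map_pow]
    have h3 := val_aeval_sub W hk hT (hjmax i hi)
    have h4 : W.valuation x ≤ 1 := (W.valuation_le_one_iff _).mpr hx
    exact mul_lt_one_of_lt_of_le h3 (pow_le_one₀ zero_le h4)
  -- `q` splits
  by_contra hcon
  push Not at hcon
  have h5 := IsAlgClosed.splits q
  have h6 : aeval x q = algebraMap kb N q.leadingCoeff *
      (q.roots.map fun a => x - algebraMap kb N a).prod := by
    conv_lhs => rw [h5.eq_prod_roots]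
    rw [map_mul, aeval_C, map_multiset_prod, Multiset.map_map]
    congr 2
    apply Multiset.map_congr rfl
    intro a _
    simp
  rw [h6, map_mul, val_const_N W hk (leadingCoeff_ne_zero.mpr hq0), one_mul,
    map_multiset_prod, Multiset.map_map] at hvq
  have h7 : 1 ≤ (Multiset.map (W.valuation ∘ fun a => x - algebraMap kb N a) q.roots).prod := by
    apply Multiset.one_le_prod_of_one_le
    intro y hy
    rw [Multiset.mem_map] at hy
    obtain ⟨a, _, rfl⟩ := hy
    exact hcon a
  exact absurd hvq (not_lt.mpr h7)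

/-- no inclusions between valuation rings -/
theorem eq_of_le [IsAlgClosed kb] [TrdegOne kb N] {W' : ValuationSubring N} (h : W ≤ W')
    (hT : T ∉ W') : W = W' := by
  refine le_antisymm h ?_
  intro x hx
  by_contra hn
  obtain ⟨m, hm⟩ := val_le_pow_N W hk hn T
  have hx0 : x ≠ 0 := by
    rintro rfl
    exact hn (zero_mem _)
  have h1 : T * (x ^ m)⁻¹ ∈ W := by
    rw [← W.valuation_le_one_iff, map_mul, map_inv₀, map_pow]
    have h2 : W.valuation x ^ m ≠ 0 := pow_ne_zero _ ((_root_.map_ne_zero _).mpr hx0)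
    rwa [mul_inv_le_iff₀ (zero_lt_iff.mpr h2), one_mul]
  apply hT
  have h3 : T = T * (x ^ m)⁻¹ * x ^ m := by
    rw [inv_mul_cancel_right₀ (pow_ne_zero _ hx0)]
  rw [h3]
  exact mul_mem (h h1) (pow_mem hx m)

end const

end P025H937
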