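import Vale.Agent.P025.R2.H937.Hens

/-!
# P025, A side, item (2e) (helper937): the places of a disc near infinity agree on a given
finitely generated field
-/

set_option linter.unusedSectionVars false

open Polynomial

universe u v w

namespace P025H937

open P025H373 P025H544 P025H720

section disc

variable {C : Type u} {kb : Type v} {N : Type w}
  [NontriviallyNormedField C] [IsUltrametricDist C] [CompleteSpace C] [IsAlgClosed C] [CharZero C]
  [Field kb] [IsAlgClosed kb] [Field N] [Algebra kb C] [Algebra kb N] [TrdegOne kb N]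

variable (C) in
/-- `1/t` in `A2` -/
noncomputable def ti : A2 C := ⟨(tt C)⁻¹, inv_tt_mem_A2⟩

theorem norm_ti : ‖((ti C : A2 C) : F0 C)‖ = 1 := by
  change ‖(tt C)⁻¹‖ = 1
  rw [norm_inv, norm_tt, inv_one]

/-- the map from `A2` to the residue field of a disc -/
noncomputable def phi {T : N} [Fact (Transcendental kb T)] (d : DT C kb N T) : A2 C →+* KK d :=
  (resF (toKK d)).comp (a2 C)

theorem phi_ti {T : N} [Fact (Transcendental kb T)] (d : DT C kb N T) :
    resN (toKK d) T⁻¹ = phi d (ti C) := by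
  rw [map_inv₀, resN_T]
  have h1 : a2 C (ti C) = (t2 C)⁻¹ := rfl
  change _ = resF (toKK d) (a2 C (ti C))
  rw [h1, map_inv₀]
  rfl

theorem phi_const {T : N} [Fact (Transcendental kb T)] (d : DT C kb N T) (r : kb) :
    resN (toKK d) (algebraMap kb N r) = phi d (algebraMap C (A2 C) (algebraMap kb C r)) := by
  rw [resN_kb, resM_C]
  rfl

/-- **(2e)** -/
theorem row2e [CharZero kb] (T : N) (hT : Transcendental kb T) (F : Finset N) :
    ∃ R : ℝ, ∀ c : kb,
      R ≤ ‖algebraMap kb C c‖ → ∀ (T' : N) [Fact (Transcendental kb T')],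
      T' * algebraMap kb N c = T → ∀ (d : DT C kb N T') (W W' : ValuationSubring N),
      P025H63.Cont d W → P025H63.Cont d W' → ∀ x ∈ IntermediateField.adjoin kb (F : Set N),
        x ∈ W → x ∈ W' := by
  classical
  obtain ⟨E, hE, hsep⟩ := exists_idem T hT F
  have hsc : ∀ p : N × N, ∃ M : ℝ, p ∈ E → ∀ l : C, M ≤ ‖l‖ → ∀ x : A2 C, ‖(x : F0 C)‖ ≤ 1 →
      ∀ (K : Type (max u w)) [Field K] (φ : A2 C →+* K) (ι : N →+* K),
        (∀ r : kb, ι (algebraMap kb N r) = φ (algebraMap C (A2 C) (algebraMap kb C r))) →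
        ι T⁻¹ = φ x → IntB φ (φ (algebraMap C (A2 C) l⁻¹) * ι p.2) := by
    intro p
    by_cases hp : p ∈ E
    · obtain ⟨M, hM⟩ := exists_scale (C := C) (T⁻¹) p.2 (hE p hp).2
      exact ⟨M, fun _ => hM⟩
    · exact ⟨0, fun h => absurd h hp⟩
  choose M hM using hsc
  obtain ⟨l, hl⟩ := NormedField.exists_lt_norm C (1 + ∑ p ∈ E, |M p|)
  have hsum : 0 ≤ ∑ p ∈ E, |M p| := Finset.sum_nonneg fun _ _ => abs_nonneg _
  have hl1 : 1 < ‖l‖ := by linarith
  have hl0 : l ≠ 0 := by
    rintro rfl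
    rw [norm_zero] at hl1
    linarith
  have hlM : ∀ p ∈ E, M p ≤ ‖l‖ := by
    intro p hp
    refine (le_abs_self _).trans ?_
    have h1 : |M p| ≤ ∑ p ∈ E, |M p| :=
      Finset.single_le_sum (f := fun p => |M p|) (fun _ _ => abs_nonneg _) hp
    linarith
  refine ⟨‖l‖ + 1, fun c hc T' _ hT' d W W' hW hW' => ?_⟩
  set c' : C := algebraMap kb C c with hc'
  have hcn : 1 < ‖c'‖ := by linarith
  have hc0 : c' ≠ 0 := by
    intro h0
    rw [h0, norm_zero] at hcn
    linarith
  have hck : c ≠ 0 := by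
    rintro rfl
    exact hc0 (map_zero _)
  obtain ⟨O, h⟩ := wit_of_cont hW
  obtain ⟨O', h'⟩ := wit_of_cont hW'
  -- the variable
  let y : A2 C := algebraMap C (A2 C) c'⁻¹ * ti C
  have hy : ‖(y : F0 C)‖ ≤ 1 := by
    change ‖algebraMap C (F0 C) c'⁻¹ * ((ti C : A2 C) : F0 C)‖ ≤ 1
    rw [norm_mul, norm_ti, mul_one, norm_algebraMap_C, norm_inv]
    exact inv_le_one_of_one_le₀ hcn.le
  have hTi : resN (toKK d) T⁻¹ = phi d y := by
    have h1 : T⁻¹ = algebraMap kb N c⁻¹ * T'⁻¹ := by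
      rw [← hT', mul_inv, mul_comm, map_inv₀]
    rw [h1, map_mul, phi_ti, phi_const]
    change _ = phi d (algebraMap C (A2 C) c'⁻¹ * ti C)
    rw [map_mul, map_inv₀ (algebraMap kb C)]
  have hO : ∀ a, phi d a ∈ O := fun a => h.left _ (a2_mem a)
  have hO' : ∀ a, phi d a ∈ O' := fun a => h'.left _ (a2_mem a)
  have hTW : T ∉ W := by
    intro h1
    apply h.T_notMem
    have h2 : T' = T * algebraMap kb N c⁻¹ := by
      rw [← hT', mul_assoc, ← map_mul, mul_inv_cancel₀ hck, map_one, mul_one]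
    rw [h2]
    exact mul_mem h1 (h.kb_mem infV_Oinf _)
  have hTW' : T ∉ W' := by
    intro h1
    apply h'.T_notMem
    have h2 : T' = T * algebraMap kb N c⁻¹ := by
      rw [← hT', mul_assoc, ← map_mul, mul_inv_cancel₀ hck, map_one, mul_one]
    rw [h2]
    exact mul_mem h1 (h'.kb_mem infV_Oinf _)
  refine hsep W W' (h.kb_mem infV_Oinf) (h'.kb_mem infV_Oinf) hTW hTW' ?_
  rintro p hp ⟨h3, h4⟩
  have hint : IntB (phi d) (phi d (ti C) * (phi d (algebraMap C (A2 C) l⁻¹) *
      resN (toKK d) p.2)) :=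
    (intB_coe (le_of_eq norm_ti)).mul
      (hM p hp l (hlM p hp) y hy _ (phi d) (resN (toKK d)) (phi_const d) hTi)
  have hπ0 : l / c' ≠ 0 := div_ne_zero hl0 hc0
  have hπ1 : ‖l / c'‖ < 1 := by
    rw [norm_div, div_lt_one (by linarith)]
    linarith
  refine hens_key hO hO' hπ0 hπ1 (e := resN (toKK d) p.1) hint ?_ ⟨?_, ?_⟩
  · have h5 := congrArg (resN (toKK d)) (hE p hp).1
    rw [map_sub, map_pow, map_mul, hTi] at h5
    rw [h5]
    change phi d (algebraMap C (A2 C) c'⁻¹ * ti C) * _ = _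
    have h6 : algebraMap C (A2 C) (l / c') * algebraMap C (A2 C) l⁻¹ =
        algebraMap C (A2 C) c'⁻¹ := by
      rw [← map_mul]
      congr 1
      field_simp
    have h7 := congrArg (phi d) h6
    rw [map_mul] at h7
    rw [map_mul, ← h7]
    ring
  · have h8 := (val_lt_iff (ι := resN (toKK d)) h.mem p.1 1).2 (by rw [map_one]; exact h3)
    rwa [map_one, map_one] at h8
  · have h8 := (val_lt_iff (ι := resN (toKK d)) h'.mem (1 - p.1) 1).2 (by rw [map_one]; exact h4)
    rwa [map_sub, map_one, map_one] at h8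

end disc

end P025H937
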